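import Vale.Agent.P030.H3.KPos
import Vale.Agent.P030.AR.Vec

/-!
# P030: the `K`-vectors of the V-layer do not vanish

For `V` with `IsV V` : `V 6 u 6 = (1-u) A0 u`, `V 7 u 6 = (1-u) A3 u` on `Up` and
`Re (V 7 u 6 * conj (V 6 u 6)) > 0`; the same at every real point `x` of the interval `q` for the
continuation `W` through `q` (`IsW V q W`).
-/

open Filter Topology Complex Metric Set ComplexConjugate

namespace Vale.Agent.P030.H3.KPos

open Vale.Agent.P030.H810 Vale.Agent.P030.AR Vale.Agent.P030.T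

noncomputable section

lemma ev_one_sub_mul {f : PowerSeries ℚ} (hf : H462.PG phQ f) {t : ℂ} (ht : ‖t‖ < 1) :
    evq ((1 - PowerSeries.X) * f) t = (1 - t) * H462.ev phQ f t := by
  unfold evq
  rw [H462.ev_mul (H462.PG.one.sub H462.PG.varX) hf ht,
    H462.ev_sub H462.PG.one H462.PG.varX ht, H462.ev_one, H462.ev_X]

lemma evq_zero (t : ℂ) : evq 0 t = 0 := H462.ev_zero t

/-- near `c0` -/
lemma gl0_6 (T : ℂ) {t : ℂ} (ht : ‖t‖ < 1) : gl0 T t 6 6 = (1 - t) * (Real.pi / 2 * kS t) := by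
  have e : gl0 T t 6 6 = (pc / 2) * tupC .z8 t 6 := rfl
  have e1 : tupC .z8 t 6 = evq ((1 - PowerSeries.X) * serK) t + xc * evq 0 t := rfl
  rw [e, e1, ev_one_sub_mul pg_serK ht, evq_zero]
  unfold pc kS
  ring

lemma gl0_7 (T : ℂ) {t : ℂ} (ht : ‖t‖ < 1) :
    gl0 T t 7 6 = (1 - t) * -(kS t * (T - 2 * (Real.log 2 : ℂ)) + H810.mS t) := by
  have e : gl0 T t 7 6 = (2 * l2 - T) * tupC .z8 t 6 - evt zM0 t 6 := rfl
  have e1 : tupC .z8 t 6 = evq ((1 - PowerSeries.X) * serK) t + xc * evq 0 t := rfl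
  have e2 : evt zM0 t 6 = evq ((1 - PowerSeries.X) * serM) t := rfl
  rw [e, e1, e2, ev_one_sub_mul pg_serK ht, ev_one_sub_mul pg_serM ht, evq_zero]
  unfold l2 kS H810.mS
  ring

lemma isOpen_Up : IsOpen Up := isOpen_lt continuous_const Complex.continuous_im

lemma isPreconnected_Up : IsPreconnected Up := (convex_halfSpace_im_gt 0).isPreconnected

lemma half_mem : (I / 2 : ℂ) ∈ Up ∧ ‖(I / 2 : ℂ)‖ < 1 := by
  refine ⟨?_, ?_⟩
  · show 0 < (I / 2 : ℂ).im
    simp
  · rw [norm_div, Complex.norm_I]; norm_num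

variable {V : Fin 8 → ℂ → Fin 8 → ℂ}

theorem V6_eq (hV : IsV V) {u : ℂ} (hu : u ∈ Up) : V 6 u 6 = (1 - u) * b0 u := by
  have hL : AnalyticOnNhd ℂ (fun u => V 6 u 6) Up := fun w hw =>
    (hV.hol 6 6).analyticAt (isOpen_Up.mem_nhds hw)
  have hR : AnalyticOnNhd ℂ (fun u => (1 - u) * b0 u) Up := fun w hw =>
    (analyticAt_const.sub analyticAt_id).mul
      (analyticAt_const.mul (isKc.analyticAt (H810.mem_OmK_of_im (ne_of_gt hw))))
  refine hL.eqOn_of_preconnected_of_eventuallyEq hR isPreconnected_Up half_mem.1 ?_ hu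
  have hb : IsOpen {w : ℂ | ‖w‖ < 1} := isOpen_lt continuous_norm continuous_const
  filter_upwards [isOpen_Up.mem_nhds half_mem.1, hb.mem_nhds half_mem.2] with w hw hw1
  have h1 := congrFun (hV.at0 w hw hw1 6) 6
  rw [h1, gl0_6 _ hw1]
  unfold b0 H810.A0
  rw [isKc.eq w hw1]

theorem V7_eq (hV : IsV V) {u : ℂ} (hu : u ∈ Up) : V 7 u 6 = (1 - u) * b3 u := by
  have hL : AnalyticOnNhd ℂ (fun u => V 7 u 6) Up := fun w hw =>
    (hV.hol 7 6).analyticAt (isOpen_Up.mem_nhds hw)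
  have hR : AnalyticOnNhd ℂ (fun u => (1 - u) * b3 u) Up := fun w hw =>
    (analyticAt_const.sub analyticAt_id).mul (isKc.analyticAt_A3 (Or.inr (ne_of_gt hw)))
  refine hL.eqOn_of_preconnected_of_eventuallyEq hR isPreconnected_Up half_mem.1 ?_ hu
  have hb : IsOpen {w : ℂ | ‖w‖ < 1} := isOpen_lt continuous_norm continuous_const
  filter_upwards [isOpen_Up.mem_nhds half_mem.1, hb.mem_nhds half_mem.2] with w hw hw1
  have h1 := congrFun (hV.at0 w hw hw1 7) 6
  rw [h1, gl0_7 _ hw1]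
  have h2 : b3 w = -(kS w * (Complex.log w - 2 * (Real.log 2 : ℂ)) + H810.mS w) :=
    isKc.A3_c0 hw1 (Or.inr (ne_of_gt hw))
  rw [h2]

lemma one_sub_ne {u : ℂ} (hu : u ∈ Up) : 1 - u ≠ 0 := by
  intro h
  have h1 : u = 1 := by linear_combination -h
  rw [h1] at hu
  exact lt_irrefl _ (show (0 : ℝ) < (1 : ℂ).im from hu)

/-- **positivity on the upper half plane** -/
theorem V_pos (hV : IsV V) {u : ℂ} (hu : u ∈ Up) : 0 < (V 7 u 6 * conj (V 6 u 6)).re := by
  rw [V6_eq hV hu, V7_eq hV hu, prod_re]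
  exact mul_pos (Complex.normSq_pos.2 (one_sub_ne hu)) (P_pos hu)

/-- no zeros from positivity -/
theorem comb_ne_of_pos {z w : ℂ} (hp : 0 < (w * conj z).re) {α β : ℂ}
    (h : 0 ≤ (α * conj β).re) (h0 : α ≠ 0 ∨ β ≠ 0) : α * z + β * w ≠ 0 := by
  intro he
  have hz : z ≠ 0 := by
    rintro rfl
    simp at hp
  by_cases hβ : β = 0
  · rw [hβ, zero_mul, add_zero] at he
    rcases h0 with h1 | h1
    · exact mul_ne_zero h1 hz he
    · exact h1 hβ
  · have h1 : β * w * (conj β * conj z) = -(α * z) * (conj β * conj z) := by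
      have : β * w = -(α * z) := by linear_combination he
      rw [this]
    have h2 : (Complex.normSq β : ℂ) * (w * conj z)
        = -((Complex.normSq z : ℂ) * (α * conj β)) := by
      rw [← Complex.mul_conj β, ← Complex.mul_conj z]
      linear_combination h1
    have h3 := congrArg Complex.re h2
    rw [Complex.re_ofReal_mul, Complex.neg_re, Complex.re_ofReal_mul] at h3
    have h4 : 0 < Complex.normSq β := Complex.normSq_pos.2 hβ
    have h5 : 0 ≤ Complex.normSq z := Complex.normSq_nonneg _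
    have h6 : 0 < Complex.normSq β * (w * conj z).re := mul_pos h4 hp
    have h7 : 0 ≤ Complex.normSq z * (α * conj β).re := mul_nonneg h5 h
    linarith

/-- the limit of `P` at a real point which is not a cusp is positive -/
lemma lim_real {x : ℝ} (h0 : x ≠ 0) (h1 : x ≠ 1) (h2 : x ≠ -1) :
    ∃ p : ℝ, 0 < p ∧ Tendsto P (𝓝[Up] (x : ℂ)) (𝓝 p) := by
  have aux : ∀ f : ℂ → ℝ, ContinuousAt f (x : ℂ) → 0 < f x → (∀ u ∈ Up, P u = f u) →
      ∃ p : ℝ, 0 < p ∧ Tendsto P (𝓝[Up] (x : ℂ)) (𝓝 p) := by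
    intro f hf hp he
    refine ⟨f x, hp, ?_⟩
    have h3 : Tendsto f (𝓝[Up] (x : ℂ)) (𝓝 (f x)) := hf.tendsto.mono_left nhdsWithin_le_nhds
    refine h3.congr' ?_
    filter_upwards [self_mem_nhdsWithin] with u hu
    exact (he u hu).symm
  rcases lt_or_ge |x| 1 with ha | ha
  · rcases lt_or_gt_of_ne h0 with hx | hx
    · obtain ⟨c, hc, e1⟩ := b1_real hx
      obtain ⟨d, hd, e0⟩ := b0_real ha
      have hc1 : ContinuousAt b1 (x : ℂ) := cont_b1 (by
        left; simp only [Complex.neg_re, Complex.ofReal_re]; linarith)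
      have hc0 : ContinuousAt b0 (x : ℂ) := cont_b0 (ofReal_mem_OmK ha)
      refine aux (fun u => (b1 u * conj (b0 u)).re) (Complex.continuous_re.continuousAt.comp
        (hc1.mul (Complex.continuous_conj.continuousAt.comp hc0))) ?_ fun u hu => P_eq1 hu
      show 0 < (b1 (x : ℂ) * conj (b0 (x : ℂ))).re
      rw [e1, e0, Complex.conj_ofReal, ← Complex.ofReal_mul, Complex.ofReal_re]
      positivity
    · obtain ⟨c, hc, e1⟩ := b3_real hx
      obtain ⟨d, hd, e0⟩ := b0_real ha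
      have hc1 : ContinuousAt b3 (x : ℂ) := cont_b3 (by
        left; simp only [Complex.ofReal_re]; exact hx)
      have hc0 : ContinuousAt b0 (x : ℂ) := cont_b0 (ofReal_mem_OmK ha)
      refine aux (fun u => (b3 u * conj (b0 u)).re) (Complex.continuous_re.continuousAt.comp
        (hc1.mul (Complex.continuous_conj.continuousAt.comp hc0))) ?_ fun u hu => rfl
      show 0 < (b3 (x : ℂ) * conj (b0 (x : ℂ))).re
      rw [e1, e0, Complex.conj_ofReal, ← Complex.ofReal_mul, Complex.ofReal_re]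
      positivity
  · have ha' : 1 < |x| := lt_of_le_of_ne ha (fun h => by
      rcases abs_eq (zero_le_one' ℝ) |>.1 h.symm with h3 | h3
      · exact h1 h3
      · exact h2 h3)
    have hx0 : (x : ℂ) ≠ 0 := Complex.ofReal_ne_zero.2 h0
    have hm2 : ((x : ℂ))⁻¹ ∈ H3.OmK := by
      rw [← Complex.ofReal_inv]
      exact ofReal_mem_OmK (by rw [abs_inv]; exact inv_lt_one_of_one_lt₀ ha')
    have hc2 : ContinuousAt b2 (x : ℂ) := cont_b2 hx0 hm2
    obtain ⟨d, hd, e2⟩ := b2_real ha'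
    rcases lt_or_gt_of_ne h0 with hx | hx
    · obtain ⟨c, hc, e1⟩ := b1_real hx
      have hc1 : ContinuousAt b1 (x : ℂ) := cont_b1 (by
        left; simp only [Complex.neg_re, Complex.ofReal_re]; linarith)
      refine aux (fun u => -(b1 u * conj (b2 u)).re) (Complex.continuous_re.continuousAt.comp
        (hc1.mul (Complex.continuous_conj.continuousAt.comp hc2))).neg ?_ fun u hu => P_eq12 hu
      show 0 < -(b1 (x : ℂ) * conj (b2 (x : ℂ))).re
      rw [e1, e2, Complex.conj_ofReal, ← Complex.ofReal_mul, Complex.ofReal_re]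
      have hd' : d < 0 := by nlinarith
      nlinarith
    · obtain ⟨c, hc, e1⟩ := b3_real hx
      have hc1 : ContinuousAt b3 (x : ℂ) := cont_b3 (by
        left; simp only [Complex.ofReal_re]; exact hx)
      refine aux (fun u => (b3 u * conj (b2 u)).re) (Complex.continuous_re.continuousAt.comp
        (hc1.mul (Complex.continuous_conj.continuousAt.comp hc2))) ?_ fun u hu => P_eq2 hu
      show 0 < (b3 (x : ℂ) * conj (b2 (x : ℂ))).re
      rw [e1, e2, Complex.conj_ofReal, ← Complex.ofReal_mul, Complex.ofReal_re]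
      have hd' : 0 < d := by nlinarith
      positivity

lemma neBot_Up (x : ℝ) : (𝓝[Up] (x : ℂ)).NeBot := by
  rw [← mem_closure_iff_nhdsWithin_neBot]
  have h : closure Up = {z : ℂ | 0 ≤ z.im} := Complex.closure_setOfPred_lt_im 0
  rw [h]
  simp

lemma Iv_ne {q : Fin 4} {x : ℝ} (hx : x ∈ Iv q) : x ≠ 0 ∧ x ≠ 1 ∧ x ≠ -1 := by
  fin_cases q
  · have h : x < -1 := hx
    exact ⟨by linarith, by linarith, by linarith⟩
  · have h : -1 < x ∧ x < 0 := hx
    exact ⟨by linarith [h.2], by linarith [h.2], by linarith [h.1]⟩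
  · have h : 0 < x ∧ x < 1 := hx
    exact ⟨by linarith [h.1], by linarith [h.2], by linarith [h.1]⟩
  · have h : 1 < x := hx
    exact ⟨by linarith, by linarith, by linarith⟩

lemma isOpen_Iv (q : Fin 4) : IsOpen (Iv q) := by
  fin_cases q
  · exact isOpen_Iio
  · exact isOpen_Ioo
  · exact isOpen_Ioo
  · exact isOpen_Ioi

lemma ofReal_mem_OmI {q : Fin 4} {x : ℝ} (hx : x ∈ Iv q) : (x : ℂ) ∈ OmI q := fun _ => by
  rwa [Complex.ofReal_re]

lemma Up_sub_OmI (q : Fin 4) : Up ⊆ OmI q := fun _ hu h => absurd h (ne_of_gt hu)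

/-- `OmI q` is open (no interval has an accumulation of excluded points inside) -/
lemma isOpen_OmI (q : Fin 4) : IsOpen (OmI q) := by
  have h : OmI q = {u : ℂ | u.im = 0 ∧ u.re ∉ Iv q}ᶜ := by
    ext u
    constructor
    · rintro h ⟨h1, h2⟩; exact h2 (h h1)
    · intro h h1
      by_contra h2
      exact h ⟨h1, h2⟩
  rw [h]
  refine IsClosed.isOpen_compl (self := ?_)
  exact (isClosed_eq Complex.continuous_im continuous_const).inter
    ((isOpen_Iv q).isClosed_compl.preimage Complex.continuous_re)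

/-- **positivity at the real points of the interval `q`** -/
theorem W_pos_real (hV : IsV V) {q : Fin 4} {W : Fin 8 → ℂ → Fin 8 → ℂ} (hW : IsW V q W) {x : ℝ}
    (hx : x ∈ Iv q) : 0 < (W 7 x 6 * conj (W 6 x 6)).re := by
  obtain ⟨h0, h1, h2⟩ := Iv_ne hx
  obtain ⟨p, hp, hlim⟩ := lim_real h0 h1 h2
  have hm := (isOpen_OmI q).mem_nhds (ofReal_mem_OmI hx)
  have c7 : ContinuousAt (fun u => W 7 u 6) (x : ℂ) :=
    ((hW.hol 7 6).differentiableAt hm).continuousAt
  have c6 : ContinuousAt (fun u => W 6 u 6) (x : ℂ) :=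
    ((hW.hol 6 6).differentiableAt hm).continuousAt
  have hc : ContinuousAt (fun u => (W 7 u 6 * conj (W 6 u 6)).re) (x : ℂ) :=
    Complex.continuous_re.continuousAt.comp (c7.mul
      (Complex.continuous_conj.continuousAt.comp c6))
  have hL : Tendsto (fun u => (W 7 u 6 * conj (W 6 u 6)).re) (𝓝[Up] (x : ℂ))
      (𝓝 ((W 7 x 6 * conj (W 6 x 6)).re)) := hc.tendsto.mono_left nhdsWithin_le_nhds
  have hn : ContinuousAt (fun u : ℂ => Complex.normSq (1 - u)) (x : ℂ) :=
    Complex.continuous_normSq.continuousAt.comp (continuousAt_const.sub continuousAt_id)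
  have hR : Tendsto (fun u => Complex.normSq (1 - u) * P u) (𝓝[Up] (x : ℂ))
      (𝓝 (Complex.normSq (1 - (x : ℂ)) * p)) :=
    (hn.tendsto.mono_left nhdsWithin_le_nhds).mul hlim
  have he : (fun u => (W 7 u 6 * conj (W 6 u 6)).re) =ᶠ[𝓝[Up] (x : ℂ)]
      fun u => Complex.normSq (1 - u) * P u := by
    filter_upwards [self_mem_nhdsWithin] with u hu
    rw [hW.up 7 u hu, hW.up 6 u hu, V6_eq hV hu, V7_eq hV hu, prod_re]
    rfl
  have := neBot_Up x
  have heq := tendsto_nhds_unique (hL.congr' he) hR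
  rw [heq]
  have hne : (1 : ℂ) - x ≠ 0 := by
    intro h
    apply h1
    have : (x : ℂ) = 1 := by linear_combination -h
    exact_mod_cast this
  exact mul_pos (Complex.normSq_pos.2 hne) hp

/-- the open set where all `K`-vectors with `Re (α conj β) ≥ 0` are zero-free -/
def OmP (W : Fin 8 → ℂ → Fin 8 → ℂ) (q : Fin 4) : Set ℂ :=
  {u | u ∈ OmI q ∧ 0 < (W 7 u 6 * conj (W 6 u 6)).re}

theorem isOpen_OmP {q : Fin 4} {W : Fin 8 → ℂ → Fin 8 → ℂ} (hW : IsW V q W) :
    IsOpen (OmP W q) := by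
  rw [isOpen_iff_mem_nhds]
  rintro u ⟨hu, hp⟩
  have hm := (isOpen_OmI q).mem_nhds hu
  have c7 : ContinuousAt (fun u => W 7 u 6) u :=
    ((hW.hol 7 6).differentiableAt hm).continuousAt
  have c6 : ContinuousAt (fun u => W 6 u 6) u :=
    ((hW.hol 6 6).differentiableAt hm).continuousAt
  have hc : ContinuousAt (fun u => (W 7 u 6 * conj (W 6 u 6)).re) u :=
    Complex.continuous_re.continuousAt.comp (c7.mul
      (Complex.continuous_conj.continuousAt.comp c6))
  filter_upwards [hm, hc.eventually (lt_mem_nhds hp)] with w h1 h2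
  exact ⟨h1, h2⟩

theorem Up_sub_OmP (hV : IsV V) {q : Fin 4} {W : Fin 8 → ℂ → Fin 8 → ℂ} (hW : IsW V q W) :
    Up ⊆ OmP W q := fun u hu => ⟨Up_sub_OmI q hu, by
  rw [hW.up 7 u hu, hW.up 6 u hu]; exact V_pos hV hu⟩

theorem real_mem_OmP (hV : IsV V) {q : Fin 4} {W : Fin 8 → ℂ → Fin 8 → ℂ} (hW : IsW V q W)
    {x : ℝ} (hx : x ∈ Iv q) : (x : ℂ) ∈ OmP W q := ⟨ofReal_mem_OmI hx, W_pos_real hV hW hx⟩

/-- **no zeros of the `K`-vectors** `α A0 + β A3`, `Re (α conj β) ≥ 0`, on `OmP W q` -/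
theorem W_comb_ne {q : Fin 4} {W : Fin 8 → ℂ → Fin 8 → ℂ} {u : ℂ} (hu : u ∈ OmP W q) {α β : ℂ}
    (h : 0 ≤ (α * conj β).re) (h0 : α ≠ 0 ∨ β ≠ 0) : α * W 6 u 6 + β * W 7 u 6 ≠ 0 :=
  comb_ne_of_pos hu.2 h h0

/-- **no zeros of the `K`-vectors** on the upper half plane -/
theorem V_comb_ne (hV : IsV V) {u : ℂ} (hu : u ∈ Up) {α β : ℂ}
    (h : 0 ≤ (α * conj β).re) (h0 : α ≠ 0 ∨ β ≠ 0) : α * V 6 u 6 + β * V 7 u 6 ≠ 0 :=
  comb_ne_of_pos (V_pos hV hu) h h0

end

end Vale.Agent.P030.H3.KPos
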