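import Vale.Agent.P030.H3.CauchyVdm

/-!
# Mutual logarithmic energies of circles and the exact value of `En`
-/

namespace Vale.Agent.P030.H3

open Finset Filter Topology MeasureTheory Real
open Vale.Agent.P030.H54

set_option linter.unusedSectionVars false

/-- mean of `log |z - a|` on a circle -/
lemma circleAverage_log_norm_sub (a c : ℂ) {R : ℝ} (hR : 0 < R) :
    circleAverage (fun z => Real.log ‖z - a‖) c R = Real.log (max R ‖c - a‖) := by
  have h := circleAverage_log_norm_sub_const_eq_log_radius_add_posLog (c := c) (a := a) hR.ne'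
  rw [h]
  rcases le_total ‖c - a‖ R with h1 | h1
  · rw [max_eq_left h1, posLog_eq_zero_iff _ |>.2, add_zero]
    rw [abs_of_nonneg (by positivity), inv_mul_le_iff₀ hR]
    simpa using h1
  · have h2 : 0 < ‖c - a‖ := hR.trans_le h1
    rw [max_eq_right h1, posLog_eq_log, Real.log_mul (by positivity) h2.ne', Real.log_inv]
    · ring
    · rw [abs_of_nonneg (by positivity), le_inv_mul_iff₀ hR]
      simpa using h1

/-- mutual energy: mean over the circle `(c, ρ)` of the potential of the circle `(c', ρ')` -/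
noncomputable def mE (c' : ℂ) (ρ' : ℝ) (c : ℂ) (ρ : ℝ) : ℝ :=
  circleAverage (fun z => Real.log (max ρ' ‖z - c'‖)) c ρ

section

variable {c c' : ℂ} {ρ ρ' : ℝ}

lemma circleIntegrable_pot (hρ' : 0 < ρ') :
    CircleIntegrable (fun z => Real.log (max ρ' ‖z - c'‖)) c ρ := by
  refine ContinuousOn.circleIntegrable' (Continuous.continuousOn ?_)
  refine Continuous.log (by fun_prop) fun z => ?_
  exact (lt_max_of_lt_left hρ').ne'

lemma circleIntegrable_logn : CircleIntegrable (fun z => Real.log ‖z - c'‖) c ρ :=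
  circleIntegrable_log_norm_sub_const ρ

/-- lower bound, all positions -/
lemma le_mE (hρ : 0 < ρ) (hρ' : 0 < ρ') :
    Real.log (max (max ρ ρ') ‖c - c'‖) ≤ mE c' ρ' c ρ := by
  have h1 : Real.log ρ' ≤ mE c' ρ' c ρ := by
    rw [mE, ← circleAverage_const (Real.log ρ') c ρ]
    refine circleAverage_mono (circleIntegrable_const _ _ _) (circleIntegrable_pot hρ')
      fun z _ => ?_
    exact Real.log_le_log hρ' (le_max_left _ _)
  have h2 : Real.log (max ρ ‖c - c'‖) ≤ mE c' ρ' c ρ := by
    have hne : (fun z => Real.log ‖z - c'‖) =ᶠ[codiscreteWithin (Metric.sphere c |ρ|)]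
        Function.update (fun z => Real.log ‖z - c'‖) c' (Real.log ρ') := by
      have : {z | z ≠ c'} ∈ codiscreteWithin (Metric.sphere c |ρ|) := by
        apply codiscreteWithin_iff_locallyFiniteComplementWithin.2
        intro z hz
        refine ⟨Set.univ, Filter.univ_mem, ?_⟩
        apply Set.Subsingleton.finite
        intro z₁ hz₁ z₂ hz₂
        simp only [ne_eq, Set.mem_inter_iff, Set.mem_univ, Set.mem_sdiff, Set.mem_ofPred_eq,
          not_not, true_and] at hz₁ hz₂
        rw [hz₁.2, hz₂.2]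
      filter_upwards [this] with z hz
      rw [Function.update_of_ne hz]
    rw [mE, ← circleAverage_log_norm_sub c' c hρ,
      circleAverage_congr_codiscreteWithin hne hρ.ne']
    refine circleAverage_mono (circleIntegrable_logn.congr_codiscreteWithin hne)
      (circleIntegrable_pot hρ') fun z _ => ?_
    by_cases h0 : z = c'
    · rw [h0, Function.update_self]
      exact Real.log_le_log hρ' (le_max_left _ _)
    · rw [Function.update_of_ne h0]
      exact Real.log_le_log (norm_pos_iff.2 (sub_ne_zero.2 h0)) (le_max_right _ _)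
  have h3 : max (max ρ ρ') ‖c - c'‖ = max ρ' (max ρ ‖c - c'‖) := by
    rw [max_comm ρ ρ', max_assoc]
  rw [h3]
  rcases le_total ρ' (max ρ ‖c - c'‖) with h | h
  · rwa [max_eq_right h]
  · rwa [max_eq_left h]

lemma mE_disjoint (hρ : 0 < ρ) (hρ' : 0 < ρ') (h : ρ + ρ' ≤ ‖c - c'‖) :
    mE c' ρ' c ρ = Real.log ‖c - c'‖ := by
  have h1 : mE c' ρ' c ρ = circleAverage (fun z => Real.log ‖z - c'‖) c ρ := by
    refine circleAverage_congr_sphere fun z hz => ?_
    rw [abs_of_pos hρ, Metric.mem_sphere, dist_eq_norm] at hz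
    have : ρ' ≤ ‖z - c'‖ := by
      have h2 : ‖c - c'‖ ≤ ‖z - c'‖ + ‖z - c‖ := by
        have : c - c' = (z - c') - (z - c) := by ring
        rw [this]; exact norm_sub_le _ _
      linarith
    simp only [max_eq_right this]
  rw [h1, circleAverage_log_norm_sub c' c hρ, max_eq_right (by linarith)]

/-- the circle `(c, ρ)` lies inside the disc `(c', ρ')` -/
lemma mE_inside (hρ : 0 < ρ) (h : ‖c - c'‖ + ρ ≤ ρ') : mE c' ρ' c ρ = Real.log ρ' := by
  have h1 : mE c' ρ' c ρ = circleAverage (fun _ => Real.log ρ') c ρ := by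
    refine circleAverage_congr_sphere fun z hz => ?_
    rw [abs_of_pos hρ, Metric.mem_sphere, dist_eq_norm] at hz
    have : ‖z - c'‖ ≤ ρ' := by
      have h2 : ‖z - c'‖ ≤ ‖z - c‖ + ‖c - c'‖ := by
        have : z - c' = (z - c) + (c - c') := by ring
        rw [this]; exact norm_add_le _ _
      linarith
    simp only [max_eq_left this]
  rw [h1, circleAverage_const]

/-- the disc `(c', ρ')` lies inside the circle `(c, ρ)` -/
lemma mE_outside (hρ' : 0 < ρ') (h : ‖c - c'‖ + ρ' ≤ ρ) : mE c' ρ' c ρ = Real.log ρ := by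
  have hρ : 0 < ρ := by linarith [norm_nonneg (c - c')]
  have h1 : mE c' ρ' c ρ = circleAverage (fun z => Real.log ‖z - c'‖) c ρ := by
    refine circleAverage_congr_sphere fun z hz => ?_
    rw [abs_of_pos hρ, Metric.mem_sphere, dist_eq_norm] at hz
    have : ρ' ≤ ‖z - c'‖ := by
      have h2 : ‖z - c‖ ≤ ‖z - c'‖ + ‖c - c'‖ := by
        have : z - c = (z - c') - (c - c') := by ring
        rw [this]; exact norm_sub_le _ _
      linarith
    simp only [max_eq_right this]
  rw [h1, circleAverage_log_norm_sub c' c hρ, max_eq_left (by linarith)]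

/-- upper bound, all positions -/
lemma mE_le (hρ : 0 < ρ) (hρ' : 0 < ρ') : mE c' ρ' c ρ ≤ Real.log (max ρ' (‖c - c'‖ + ρ)) := by
  rw [mE, ← circleAverage_const (Real.log (max ρ' (‖c - c'‖ + ρ))) c ρ]
  refine circleAverage_mono (circleIntegrable_pot hρ') (circleIntegrable_const _ _ _)
    fun z hz => ?_
  rw [abs_of_pos hρ, Metric.mem_sphere, dist_eq_norm] at hz
  refine Real.log_le_log (lt_max_of_lt_left hρ') (max_le_max le_rfl ?_)
  have h2 : ‖z - c'‖ ≤ ‖z - c‖ + ‖c - c'‖ := by
    have : z - c' = (z - c) + (c - c') := by ring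
    rw [this]; exact norm_add_le _ _
  linarith

end

variable {κ : Type*} [Fintype κ]

lemma SCirc.circleAverage_U (m : SCirc κ) (c : ℂ) (ρ : ℝ) :
    circleAverage m.U c ρ = ∑ l, m.w l * mE (m.c l) (m.ρ l) c ρ := by
  have h1 : m.U = fun z => ∑ l, m.w l * Real.log (max (m.ρ l) ‖z - m.c l‖) := rfl
  rw [h1, circleAverage_fun_sum]
  · refine Finset.sum_congr rfl fun l _ => ?_
    have := circleAverage_fun_smul (a := m.w l)
      (f := fun z => Real.log (max (m.ρ l) ‖z - m.c l‖)) (c := c) (R := ρ)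
    simpa only [smul_eq_mul, mE] using this
  · intro l _
    exact (circleIntegrable_pot (m.ρ_pos l)).const_mul _

/-- **the energy as a double sum of mutual energies** -/
lemma SCirc.En_eq (m : SCirc κ) :
    m.En = ∑ k, ∑ l, m.w k * m.w l * mE (m.c l) (m.ρ l) (m.c k) (m.ρ k) := by
  rw [SCirc.En]
  refine Finset.sum_congr rfl fun k _ => ?_
  rw [m.circleAverage_U, Finset.mul_sum]
  exact Finset.sum_congr rfl fun l _ => by ring

/-- two circles are disjoint or nested -/
def Apart (c : ℂ) (ρ : ℝ) (c' : ℂ) (ρ' : ℝ) : Prop :=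
  ρ + ρ' ≤ ‖c - c'‖ ∨ ‖c - c'‖ + ρ ≤ ρ' ∨ ‖c - c'‖ + ρ' ≤ ρ

lemma mE_eq_of_apart {c c' : ℂ} {ρ ρ' : ℝ} (hρ : 0 < ρ) (hρ' : 0 < ρ')
    (h : Apart c ρ c' ρ') : mE c' ρ' c ρ = Real.log (max (max ρ ρ') ‖c - c'‖) := by
  rcases h with h | h | h
  · rw [mE_disjoint hρ hρ' h, max_eq_right (max_le (by linarith) (by linarith))]
  · have h0 := norm_nonneg (c - c')
    rw [mE_inside hρ h, max_eq_right (by linarith : ρ ≤ ρ'), max_eq_left (by linarith)]
  · have h0 := norm_nonneg (c - c')
    rw [mE_outside hρ' h, max_eq_left (by linarith : ρ' ≤ ρ), max_eq_left (by linarith)]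

/-- **certificate form**: a lower bound of the energy as a finite sum of logarithms; pairs of
circles whose weights have opposite signs must be disjoint or nested -/
theorem SCirc.le_En (m : SCirc κ)
    (h : ∀ k l, m.w k * m.w l < 0 → Apart (m.c k) (m.ρ k) (m.c l) (m.ρ l)) :
    ∑ k, ∑ l, m.w k * m.w l * Real.log (max (max (m.ρ k) (m.ρ l)) ‖m.c k - m.c l‖) ≤ m.En := by
  rw [m.En_eq]
  refine Finset.sum_le_sum fun k _ => Finset.sum_le_sum fun l _ => ?_
  rcases lt_or_ge (m.w k * m.w l) 0 with h1 | h1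
  · rw [mE_eq_of_apart (m.ρ_pos k) (m.ρ_pos l) (h k l h1)]
  · exact mul_le_mul_of_nonneg_left (le_mE (m.ρ_pos k) (m.ρ_pos l)) h1

/-- exact value if all circles are pairwise disjoint or nested -/
theorem SCirc.En_eq_of_apart (m : SCirc κ)
    (h : ∀ k l, k ≠ l → Apart (m.c k) (m.ρ k) (m.c l) (m.ρ l)) :
    m.En = ∑ k, ∑ l, m.w k * m.w l *
      Real.log (max (max (m.ρ k) (m.ρ l)) ‖m.c k - m.c l‖) := by
  rw [m.En_eq]
  refine Finset.sum_congr rfl fun k _ => Finset.sum_congr rfl fun l _ => ?_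
  by_cases hkl : k = l
  · subst hkl
    rw [mE_eq_of_apart (m.ρ_pos k) (m.ρ_pos k) (Or.inr (Or.inl (by simp)))]
  · rw [mE_eq_of_apart (m.ρ_pos k) (m.ρ_pos l) (h k l hkl)]

end Vale.Agent.P030.H3
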