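import Vale.Agent.P030.H3.Mutual

/-!
# The energy hypothesis (N3) of the elimination theorem, literal form
-/

namespace Vale.Agent.P030.H3

open Finset Filter Topology MeasureTheory Real
open Vale.Agent.P030.H54

variable {κ : Type*} [Fintype κ]

lemma norm_det_vandermonde {n : ℕ} (y : Fin n → ℂ) : ‖(Matrix.vandermonde y).det‖ = avd y := by
  rw [Matrix.det_vandermonde, norm_prod, avd]
  exact Finset.prod_congr rfl fun i _ => norm_prod _ _

/-- **(N3)**: `w = d U + γ`, `E = d γ + d² En / 2 - K (d Wc δ - log (δ/2))`. -/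
theorem energy_N3 (m : SCirc κ) (γ : ℝ) (d K : ℕ) {δ : ℝ} (hδ : 0 < δ) (hδ2 : δ ≤ 2)
    (p : ℕ) (hp : p + d ≤ K) (a : Fin (p + d) → ℂ) (x : Fin p → ℂ)
    (hsep : ∀ i j, δ ≤ ‖x i - a j‖) :
    ‖(Matrix.vandermonde a).det‖ * ‖(Matrix.vandermonde x).det‖ ≤
      Real.exp (∑ i, (d * m.U (a i) + γ) - ∑ j, (d * m.U (x j) + γ) -
        (d * γ + (d : ℝ) ^ 2 * m.En / 2 - K * (d * m.Wc * δ - Real.log (δ / 2)))) *
      ∏ i, ∏ j, ‖x i - a j‖ := by
  have h := cauchyVandermonde_le_sep m a x hδ (fun i j => by rw [norm_sub_rev]; exact hsep j i)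
  rw [norm_det_vandermonde, norm_det_vandermonde, mul_comm (Real.exp _)]
  refine h.trans ?_
  have e1 : ∏ i, ∏ j, ‖a i - x j‖ = ∏ i, ∏ j, ‖x i - a j‖ := by
    rw [Finset.prod_comm]
    exact Finset.prod_congr rfl fun i _ => Finset.prod_congr rfl fun j _ => norm_sub_rev _ _
  rw [e1]
  refine mul_le_mul_of_nonneg_left (Real.exp_le_exp.2 ?_)
    (Finset.prod_nonneg fun i _ => Finset.prod_nonneg fun j _ => norm_nonneg _)
  have e2 : (((p + d : ℕ) : ℝ) - p) = d := by push_cast; ring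
  rw [e2]
  have e3 : ∑ i, ((d : ℝ) * m.U (a i) + γ) - ∑ j, ((d : ℝ) * m.U (x j) + γ) =
      d * (∑ i, m.U (a i) - ∑ j, m.U (x j)) + d * γ := by
    simp only [Finset.sum_add_distrib, ← Finset.mul_sum, Finset.sum_const, Finset.card_univ,
      Fintype.card_fin, nsmul_eq_mul]
    push_cast
    ring
  rw [e3]
  have hlog : Real.log (δ / 2) ≤ 0 := Real.log_nonpos (by positivity) (by linarith)
  have hd : (0 : ℝ) ≤ d := Nat.cast_nonneg d
  have hWc := m.Wc_nonneg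
  have h1 : 0 ≤ (d : ℝ) * m.Wc * (δ / 2) - Real.log (δ / 2) / 2 := by
    have : 0 ≤ (d : ℝ) * m.Wc * (δ / 2) := by positivity
    linarith
  have h2 : (((p + d : ℕ) : ℝ) + p) ≤ 2 * K := by
    have : ((p + d : ℕ) : ℝ) ≤ K := by exact_mod_cast hp
    have h3 : (p : ℝ) ≤ ((p + d : ℕ) : ℝ) := by push_cast; linarith
    linarith
  have h3 := mul_le_mul_of_nonneg_right h2 h1
  rw [abs_of_nonneg hd]
  nlinarith [h3]

end Vale.Agent.P030.H3
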