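import Vale.Agent.P030.H54.Cpd
import Vale.Agent.P030.H54.Nodes

/-!
# The signed energy inequality (step T2 of the covolume bound)

Exact inequality `I(σ) ≤ 0` for signed combinations of circle measures of total mass zero, in the
form needed for Cauchy–Vandermonde products.
-/

namespace Vale.Agent.P030.H3

open Finset Filter Topology MeasureTheory Real
open Vale.Agent.P030.H54

/-- a signed combination (total mass one) of uniform measures on circles -/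
structure SCirc (κ : Type*) [Fintype κ] where
  w : κ → ℝ
  c : κ → ℂ
  ρ : κ → ℝ
  w_sum : ∑ k, w k = 1
  ρ_pos : ∀ k, 0 < ρ k

set_option linter.unusedSectionVars false

variable {κ : Type*} [Fintype κ]

namespace SCirc

variable (m : SCirc κ)

/-- its logarithmic potential -/
noncomputable def U (s : ℂ) : ℝ := ∑ k, m.w k * Real.log (max (m.ρ k) ‖s - m.c k‖)

/-- its logarithmic energy -/
noncomputable def En : ℝ := ∑ k, m.w k * circleAverage m.U (m.c k) (m.ρ k)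

/-- total variation -/
noncomputable def W : ℝ := ∑ k, |m.w k|

/-- Lipschitz constant of the potential -/
noncomputable def Wc : ℝ := ∑ k, |m.w k| / m.ρ k

lemma max_pos (k : κ) (s : ℂ) : 0 < max (m.ρ k) ‖s - m.c k‖ := lt_max_of_lt_left (m.ρ_pos k)

lemma continuous_U : Continuous m.U := by
  refine continuous_finsetSum _ fun k _ => continuous_const.mul ?_
  refine Continuous.log ?_ fun s => (m.max_pos k s).ne'
  fun_prop

lemma W_nonneg : 0 ≤ m.W := Finset.sum_nonneg fun _ _ => abs_nonneg _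

lemma Wc_nonneg : 0 ≤ m.Wc := Finset.sum_nonneg fun k _ => div_nonneg (abs_nonneg _) (m.ρ_pos k).le

end SCirc

lemma abs_log_max_sub_le {ρ : ℝ} (hρ : 0 < ρ) (s t c : ℂ) :
    |Real.log (max ρ ‖s - c‖) - Real.log (max ρ ‖t - c‖)| ≤ ‖s - t‖ / ρ := by
  have key : ∀ s t : ℂ, Real.log (max ρ ‖s - c‖) - Real.log (max ρ ‖t - c‖) ≤ ‖s - t‖ / ρ := by
    intro s t
    have h1 : 0 < max ρ ‖s - c‖ := lt_max_of_lt_left hρ
    have h2 : 0 < max ρ ‖t - c‖ := lt_max_of_lt_left hρ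
    rw [← Real.log_div h1.ne' h2.ne']
    have h3 := Real.log_le_sub_one_of_pos (div_pos h1 h2)
    refine h3.trans ?_
    rw [div_sub_one h2.ne']
    have h4 : max ρ ‖s - c‖ - max ρ ‖t - c‖ ≤ ‖s - t‖ := by
      have h5 : ‖s - c‖ ≤ ‖t - c‖ + ‖s - t‖ := by
        have : s - c = (t - c) + (s - t) := by ring
        rw [this]; exact norm_add_le _ _
      have h6 : max ρ ‖s - c‖ ≤ max ρ ‖t - c‖ + ‖s - t‖ := by
        refine max_le ?_ ?_
        · linarith [le_max_left ρ ‖t - c‖, norm_nonneg (s - t)]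
        · linarith [le_max_right ρ ‖t - c‖]
      linarith
    exact div_le_div₀ (norm_nonneg _) h4 hρ (le_max_left _ _)
  rw [abs_le]
  constructor
  · have := key t s
    rw [norm_sub_rev t s] at this
    linarith
  · exact key s t

section discrete

variable {P : Type*} [Fintype P]

/-- point on the circle with index `p` -/
noncomputable def pt (a : P → ℂ) (r : P → ℝ) (v : P → ℂ) (p : P) (ζ : ℂ) : ℂ :=
  a p + r p * v p * ζ

/-- double sum of the regularised kernel over two circles -/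
noncomputable def TT (a : P → ℂ) (r : P → ℝ) (v : P → ℂ) (ε : ℝ) (N : ℕ) (p p' : P) : ℝ :=
  ∑ ζ ∈ mu N, ∑ ζ' ∈ mu N, Real.log (‖pt a r v p ζ - pt a r v p' ζ'‖ ^ 2 + ε)

variable {a : P → ℂ} {r : P → ℝ} {v : P → ℂ} {ε : ℝ} {N : ℕ}

lemma TT_comm (p p' : P) : TT a r v ε N p p' = TT a r v ε N p' p := by
  rw [TT, TT, Finset.sum_comm]
  refine Finset.sum_congr rfl fun ζ _ => Finset.sum_congr rfl fun ζ' _ => ?_
  rw [norm_sub_rev]

lemma TT_cpd (q : P → ℝ) (hq : ∑ p, q p = 0) (hε : 0 < ε) :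
    ∑ p, ∑ p', q p * q p' * TT a r v ε N p p' ≤ 0 := by
  let x : P × (mu N) → ℂ := fun z => pt a r v z.1 z.2
  let Q : P × (mu N) → ℝ := fun z => q z.1
  have hQ : ∑ z, Q z = 0 := by
    simp only [Q, Fintype.sum_prod_type, Finset.sum_const, nsmul_eq_mul]
    rw [← Finset.mul_sum, hq, mul_zero]
  have h := log_cpd x Q hQ hε
  simp only [Fintype.sum_prod_type, x, Q] at h
  refine le_trans (le_of_eq ?_) h
  refine Finset.sum_congr rfl fun p _ => ?_
  have h1 : ∀ ζ : mu N, ∑ p', ∑ ζ' : mu N, q p * q p' *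
      Real.log (‖pt a r v p ζ - pt a r v p' ζ'‖ ^ 2 + ε) =
      ∑ p', q p * q p' * ∑ ζ' ∈ mu N, Real.log (‖pt a r v p ζ - pt a r v p' ζ'‖ ^ 2 + ε) := by
    intro ζ
    refine Finset.sum_congr rfl fun p' _ => ?_
    rw [← Finset.mul_sum, ← Finset.sum_coe_sort (mu N)]
  rw [Finset.sum_congr rfl fun ζ _ => h1 ζ, Finset.sum_comm]
  refine Finset.sum_congr rfl fun p' _ => ?_
  rw [← Finset.mul_sum, TT, ← Finset.sum_coe_sort (mu N)]

variable (hv : ∀ p, ‖v p‖ = 1) (hr : ∀ p, 0 < r p) (hε : 0 < ε) (hN : 0 < N)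
include hv hr

lemma norm_pt_sub (hN : 0 < N) (p : P) {ζ : ℂ} (hζ : ζ ∈ mu N) : ‖pt a r v p ζ - a p‖ = r p := by
  have : pt a r v p ζ - a p = r p * v p * ζ := by simp [pt]
  rw [this, norm_mul, norm_mul, hv, mu_norm hN hζ, Complex.norm_real,
    Real.norm_of_nonneg (hr p).le]
  ring

include hε hN

/-- upper bound of an inner sum -/
lemma inner_le (y : ℂ) (p' : P) :
    ∑ ζ' ∈ mu N, Real.log (‖y - pt a r v p' ζ'‖ ^ 2 + ε) ≤
      2 * N * Real.log (max (r p') ‖y - a p'‖) + (2 * N * (√ε / r p') + 2 * Real.log 2) := by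
  have := sum_log_le y (a p') (v p') (hv p') (hr p') hε hN
  simp only [pt]
  linarith

omit hN in
lemma TT_le_aux (hN : 0 < N) (p p' : P) :
    TT a r v ε N p p' ≤ 2 * N * (∑ ζ ∈ mu N, Real.log (max (r p') ‖pt a r v p ζ - a p'‖)) +
      N * (2 * N * (√ε / r p') + 2 * Real.log 2) := by
  rw [TT, Finset.mul_sum]
  have h1 := Finset.sum_le_sum fun ζ (_ : ζ ∈ mu N) =>
    inner_le (a := a) hv hr hε hN (pt a r v p ζ) p'
  refine h1.trans_eq ?_
  rw [Finset.sum_add_distrib, Finset.sum_const, mu_card hN, nsmul_eq_mul]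

variable {R : ℝ} (hR : 0 < R) (hRp : ∀ p p', (r p + ‖a p - a p'‖ + r p') ^ 2 + ε ≤ R ^ 2)
  (hNR : (1 - √ε / R) ^ N ≤ 1 / 2)
include hR hRp hNR

lemma le_inner {y : ℂ} {p : P} (hy : ‖y - a p‖ ≤ r p) (p' : P) :
    2 * N * Real.log (max (r p') ‖y - a p'‖) - 2 * Real.log 2 ≤
      ∑ ζ' ∈ mu N, Real.log (‖y - pt a r v p' ζ'‖ ^ 2 + ε) := by
  have h1 : ‖y - a p'‖ ≤ r p + ‖a p - a p'‖ := by
    have : y - a p' = (y - a p) + (a p - a p') := by ring
    rw [this]; exact (norm_add_le _ _).trans (by linarith)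
  have h2 : (‖y - a p'‖ + r p') ^ 2 + ε ≤ R ^ 2 := by
    refine le_trans ?_ (hRp p p')
    have h3 : ‖y - a p'‖ + r p' ≤ r p + ‖a p - a p'‖ + r p' := by linarith
    have h4 : 0 ≤ ‖y - a p'‖ + r p' := by have := (hr p').le; positivity
    have := pow_le_pow_left₀ h4 h3 2
    linarith
  have := le_sum_log y (a p') (v p') (hv p') (hr p') hε hN hR h2 hNR
  simpa only [pt] using this

lemma le_TT_aux (p p' : P) :
    2 * N * (∑ ζ ∈ mu N, Real.log (max (r p') ‖pt a r v p ζ - a p'‖)) - N * (2 * Real.log 2) ≤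
      TT a r v ε N p p' := by
  rw [TT, Finset.mul_sum]
  have h1 := Finset.sum_le_sum fun ζ (hζ : ζ ∈ mu N) =>
    le_inner hv hr hε hN hR hRp hNR (norm_pt_sub hv hr hN p hζ).le p'
  refine le_trans (le_of_eq ?_) h1
  rw [Finset.sum_sub_distrib, Finset.sum_const, mu_card hN, nsmul_eq_mul]

/-- general lower bound -/
lemma le_TT (p p' : P) :
    2 * (N : ℝ) ^ 2 * Real.log (max (r p) ‖a p - a p'‖) -
      ((N : ℝ) ^ 2 * (ε / r p' ^ 2) + 4 * N * Real.log 2) ≤ TT a r v ε N p p' := by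
  have h0 := le_TT_aux hv hr hε hN hR hRp hNR p p'
  have hNr : (0 : ℝ) < N := Nat.cast_pos.2 hN
  -- compare `log max` with the regularised logarithm
  have h1 : ∀ t : ℝ, 0 ≤ t → Real.log (t ^ 2 + ε) - ε / r p' ^ 2 ≤
      2 * Real.log (max (r p') t) := by
    intro t ht
    have hm : 0 < max (r p') t := lt_max_of_lt_left (hr p')
    have h2 : t ^ 2 + ε ≤ max (r p') t ^ 2 * (1 + ε / r p' ^ 2) := by
      have h3 : t ^ 2 ≤ max (r p') t ^ 2 := pow_le_pow_left₀ ht (le_max_right _ _) 2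
      have h4 : ε ≤ max (r p') t ^ 2 * (ε / r p' ^ 2) := by
        rw [mul_div_assoc', le_div_iff₀ (by have := hr p'; positivity), mul_comm]
        exact mul_le_mul_of_nonneg_right (pow_le_pow_left₀ (hr p').le (le_max_left _ _) 2) hε.le
      linarith
    have h3 := Real.log_le_log (by positivity) h2
    rw [Real.log_mul (by positivity) (by have := hr p'; positivity), Real.log_pow] at h3
    have h4 : Real.log (1 + ε / r p' ^ 2) ≤ ε / r p' ^ 2 := by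
      have := Real.log_le_sub_one_of_pos (x := 1 + ε / r p' ^ 2) (by have := hr p'; positivity)
      linarith
    push_cast at h3
    linarith
  have h2 : ∑ ζ ∈ mu N, (Real.log (‖pt a r v p ζ - a p'‖ ^ 2 + ε) - ε / r p' ^ 2) ≤
      2 * ∑ ζ ∈ mu N, Real.log (max (r p') ‖pt a r v p ζ - a p'‖) := by
    rw [Finset.mul_sum]
    exact Finset.sum_le_sum fun ζ _ => h1 _ (norm_nonneg _)
  rw [Finset.sum_sub_distrib, Finset.sum_const, mu_card hN, nsmul_eq_mul] at h2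
  have h3 : 2 * N * Real.log (max (r p) ‖a p' - a p‖) - 2 * Real.log 2 ≤
      ∑ ζ ∈ mu N, Real.log (‖pt a r v p ζ - a p'‖ ^ 2 + ε) := by
    have h4 := le_inner hv hr hε hN hR hRp hNR (y := a p') (p := p') (by simpa using (hr p').le) p
    refine h4.trans_eq ?_
    refine Finset.sum_congr rfl fun ζ _ => ?_
    rw [norm_sub_rev]
  rw [norm_sub_rev] at h3
  have h5 := mul_le_mul_of_nonneg_left (h3.trans (by linarith [h2] :
    ∑ ζ ∈ mu N, Real.log (‖pt a r v p ζ - a p'‖ ^ 2 + ε) ≤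
      2 * ∑ ζ ∈ mu N, Real.log (max (r p') ‖pt a r v p ζ - a p'‖) + N * (ε / r p' ^ 2))) hNr.le
  nlinarith [h5, h0]

omit hR hRp hNR in
/-- upper bound for separated circles -/
lemma TT_le {p p' : P} (hsep : r p + r p' ≤ ‖a p - a p'‖) :
    TT a r v ε N p p' ≤ 2 * (N : ℝ) ^ 2 * Real.log ‖a p - a p'‖ +
      ((N : ℝ) ^ 2 * (2 * √ε / r p + 2 * √ε / r p') + 4 * N * Real.log 2) := by
  have h0 := TT_le_aux (a := a) hv hr hε hN p p'
  have hNr : (0 : ℝ) < N := Nat.cast_pos.2 hN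
  have h1 : 2 * ∑ ζ ∈ mu N, Real.log (max (r p') ‖pt a r v p ζ - a p'‖) ≤
      ∑ ζ ∈ mu N, Real.log (‖a p' - pt a r v p ζ‖ ^ 2 + ε) := by
    rw [Finset.mul_sum]
    refine Finset.sum_le_sum fun ζ hζ => ?_
    have h2 : r p' ≤ ‖pt a r v p ζ - a p'‖ := by
      have h3 : ‖a p - a p'‖ ≤ ‖pt a r v p ζ - a p'‖ + r p := by
        have : a p - a p' = (pt a r v p ζ - a p') - (pt a r v p ζ - a p) := by ring
        rw [this]
        refine (norm_sub_le _ _).trans ?_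
        rw [norm_pt_sub hv hr hN p hζ]
      linarith
    rw [max_eq_right h2]
    have h4 : 0 < ‖pt a r v p ζ - a p'‖ := (hr p').trans_le h2
    rw [norm_sub_rev (a p')]
    have h5 : 2 * Real.log ‖pt a r v p ζ - a p'‖ = Real.log (‖pt a r v p ζ - a p'‖ ^ 2) := by
      rw [Real.log_pow]; push_cast; ring
    rw [h5]
    exact Real.log_le_log (by positivity) (by linarith)
  have h2 := inner_le (a := a) hv hr hε hN (a p') p
  have h3 : max (r p) ‖a p' - a p‖ = ‖a p - a p'‖ := by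
    rw [norm_sub_rev]
    exact max_eq_right (by linarith [(hr p').le])
  rw [h3] at h2
  have h4 := mul_le_mul_of_nonneg_left (h1.trans h2) hNr.le
  have e1 : 2 * √ε / r p = 2 * (√ε / r p) := by ring
  have e2 : 2 * √ε / r p' = 2 * (√ε / r p') := by ring
  rw [e1, e2]
  nlinarith [h4, h0]

end discrete

lemma exists_signed_rotation (m : SCirc κ) (k : κ) {N : ℕ} (hN : 0 < N) :
    ∃ v : ℂ, ‖v‖ = 1 ∧ m.w k * (N * circleAverage m.U (m.c k) (m.ρ k)) ≤
      m.w k * ∑ ζ ∈ mu N, m.U (m.c k + m.ρ k * v * ζ) := by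
  rcases le_total 0 (m.w k) with hw | hw
  · obtain ⟨v, hv, h⟩ := exists_good_rotation m.continuous_U (m.c k) (m.ρ k) hN
    exact ⟨v, hv, mul_le_mul_of_nonneg_left h hw⟩
  · obtain ⟨v, hv, h⟩ := exists_good_rotation m.continuous_U.neg (m.c k) (m.ρ k) hN
    refine ⟨v, hv, mul_le_mul_of_nonpos_left ?_ hw⟩
    have e1 : circleAverage (-m.U) (m.c k) (m.ρ k) = -circleAverage m.U (m.c k) (m.ρ k) := by
      have := circleAverage_fun_smul (a := (-1 : ℝ)) (f := m.U) (c := m.c k) (R := m.ρ k)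
      simp only [neg_smul, one_smul] at this
      exact this
    have e2 : ∑ ζ ∈ mu N, (-m.U) (m.c k + m.ρ k * v * ζ) =
        -∑ ζ ∈ mu N, m.U (m.c k + m.ρ k * v * ζ) := by
      rw [← Finset.sum_neg_distrib]; rfl
    have h' : N * circleAverage (-m.U) (m.c k) (m.ρ k) ≤
      ∑ ζ ∈ mu N, (-m.U) (m.c k + m.ρ k * v * ζ) := h
    rw [e1, e2] at h'
    linarith

section pairs

variable {P : Type*} [Fintype P] {a : P → ℂ} {r : P → ℝ} {v : P → ℂ} {ε : ℝ} {N : ℕ}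
  (hv : ∀ p, ‖v p‖ = 1) (hr : ∀ p, 0 < r p) (hε : 0 < ε) (hN : 0 < N)
  {R : ℝ} (hR : 0 < R) (hRp : ∀ p p', (r p + ‖a p - a p'‖ + r p') ^ 2 + ε ≤ R ^ 2)
  (hNR : (1 - √ε / R) ^ N ≤ 1 / 2) {e : ℝ}
  (he1 : ∀ p p', (N : ℝ) ^ 2 * (2 * √ε / r p + 2 * √ε / r p') + 4 * N * Real.log 2 ≤
    (N : ℝ) ^ 2 * e)
  (he2 : ∀ p, (N : ℝ) ^ 2 * (ε / r p ^ 2) + 4 * N * Real.log 2 ≤ (N : ℝ) ^ 2 * e)
include hv hr hε hN hR hRp hNR he1 he2

lemma pair_bound {p p' : P} {Q g : ℝ}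
    (hg : (0 ≤ Q ∧ g ≤ Q * Real.log (max (r p) ‖a p - a p'‖)) ∨
      (Q ≤ 0 ∧ r p + r p' ≤ ‖a p - a p'‖ ∧ g ≤ Q * Real.log ‖a p - a p'‖)) :
    (N : ℝ) ^ 2 * (2 * g) - (N : ℝ) ^ 2 * e * |Q| ≤ Q * TT a r v ε N p p' := by
  rcases hg with ⟨hq0, hgij⟩ | ⟨hq0, hsep, hgij⟩
  · have h1 := le_TT hv hr hε hN hR hRp hNR p p'
    have h2 := he2 p'
    have h3 : 2 * (N : ℝ) ^ 2 * Real.log (max (r p) ‖a p - a p'‖) - (N : ℝ) ^ 2 * e ≤
        TT a r v ε N p p' := by linarith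
    have h4 := mul_le_mul_of_nonneg_left h3 hq0
    have h5 := mul_le_mul_of_nonneg_left hgij (by positivity : (0 : ℝ) ≤ 2 * (N : ℝ) ^ 2)
    rw [abs_of_nonneg hq0]
    nlinarith [h4, h5]
  · have h1 := TT_le (a := a) hv hr hε hN hsep
    have h2 := he1 p p'
    have h3 : TT a r v ε N p p' ≤
        2 * (N : ℝ) ^ 2 * Real.log ‖a p - a p'‖ + (N : ℝ) ^ 2 * e := by linarith
    have h4 := mul_le_mul_of_nonpos_left h3 hq0
    have h5 := mul_le_mul_of_nonneg_left hgij (by positivity : (0 : ℝ) ≤ 2 * (N : ℝ) ^ 2)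
    rw [abs_of_nonpos hq0]
    nlinarith [h4, h5]

lemma avg_bound (p p' : P) : |TT a r v ε N p p' - 2 * N * ∑ ζ ∈ mu N,
      Real.log (max (r p') ‖pt a r v p ζ - a p'‖)| ≤ (N : ℝ) ^ 2 * e := by
  have h1 := TT_le_aux (a := a) hv hr hε hN p p'
  have h2 := le_TT_aux hv hr hε hN hR hRp hNR p p'
  have h3 := he1 p p'
  have hNr : (0 : ℝ) < N := Nat.cast_pos.2 hN
  have hl2 : 0 < Real.log 2 := Real.log_pos (by norm_num)
  have h9 : 0 < (N : ℝ) * Real.log 2 := by positivity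
  have h4 : 0 ≤ (N : ℝ) ^ 2 * (2 * √ε / r p) := by have := hr p; positivity
  have h4' : 0 ≤ (N : ℝ) ^ 2 * (2 * √ε / r p') := by have := hr p'; positivity
  have h5 : (N : ℝ) * (2 * N * (√ε / r p')) = (N : ℝ) ^ 2 * (2 * √ε / r p') := by ring
  rw [abs_le]
  constructor
  · linarith
  · linarith

lemma centre_bound (p p' : P) : |TT a r v ε N p p' -
      2 * (N : ℝ) ^ 2 * Real.log (max (r p') ‖a p - a p'‖)| ≤
      (N : ℝ) ^ 2 * (2 * (r p / r p')) + (N : ℝ) ^ 2 * e := by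
  have h1 := avg_bound hv hr hε hN hR hRp hNR he1 he2 p p'
  have h2 : |∑ ζ ∈ mu N, Real.log (max (r p') ‖pt a r v p ζ - a p'‖) -
      N * Real.log (max (r p') ‖a p - a p'‖)| ≤ N * (r p / r p') := by
    have h3 : (N : ℝ) * Real.log (max (r p') ‖a p - a p'‖) =
        ∑ ζ ∈ mu N, Real.log (max (r p') ‖a p - a p'‖) := by
      rw [Finset.sum_const, mu_card hN, nsmul_eq_mul]
    rw [h3, ← Finset.sum_sub_distrib]
    refine (Finset.abs_sum_le_sum_abs _ _).trans ?_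
    have h4 : ∀ ζ ∈ mu N, |Real.log (max (r p') ‖pt a r v p ζ - a p'‖) -
        Real.log (max (r p') ‖a p - a p'‖)| ≤ r p / r p' := by
      intro ζ hζ
      refine (abs_log_max_sub_le (hr p') _ _ _).trans (le_of_eq ?_)
      rw [norm_pt_sub hv hr hN p hζ]
    refine (Finset.sum_le_sum h4).trans (le_of_eq ?_)
    rw [Finset.sum_const, mu_card hN, nsmul_eq_mul]
  generalize TT a r v ε N p p' = T at h1 ⊢
  generalize ∑ ζ ∈ mu N, Real.log (max (r p') ‖pt a r v p ζ - a p'‖) = A at h1 h2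
  generalize Real.log (max (r p') ‖a p - a p'‖) = L at h2 ⊢
  have h3 : T - 2 * (N : ℝ) ^ 2 * L = (T - 2 * N * A) + 2 * N * (A - N * L) := by ring
  rw [h3]
  refine (abs_add_le _ _).trans ?_
  rw [abs_mul, abs_of_nonneg (by positivity : (0 : ℝ) ≤ 2 * (N : ℝ))]
  have h4 := mul_le_mul_of_nonneg_left h2 (by positivity : (0 : ℝ) ≤ 2 * (N : ℝ))
  nlinarith [h1, h4]

end pairs

section sums

variable (m : SCirc κ) {ι : Type*} [Fintype ι] {N : ℕ} {e : ℝ}

lemma sum_pairs {q : ι → ℝ} {g T : ι → ι → ℝ}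
    (h : ∀ i j, (N : ℝ) ^ 2 * (2 * g i j) - (N : ℝ) ^ 2 * e * |q i * q j| ≤ q i * q j * T i j) :
    (N : ℝ) ^ 2 * (2 * ∑ i, ∑ j, g i j) - (N : ℝ) ^ 2 * e * (∑ i, |q i|) ^ 2 ≤
      ∑ i, ∑ j, q i * q j * T i j := by
  refine le_trans (le_of_eq ?_) (Finset.sum_le_sum fun i _ => Finset.sum_le_sum fun j _ => h i j)
  simp only [Finset.sum_sub_distrib, ← Finset.mul_sum, abs_mul]
  rw [← Finset.sum_mul]
  ring

lemma sum_cross {s : ι → ℂ} {q r : ι → ℝ} {T : ι → κ → ℝ}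
    (h : ∀ i k, |T i k - 2 * (N : ℝ) ^ 2 * Real.log (max (m.ρ k) ‖s i - m.c k‖)| ≤
      (N : ℝ) ^ 2 * (2 * (r i / m.ρ k)) + (N : ℝ) ^ 2 * e) :
    |∑ i, ∑ k, q i * m.w k * T i k - (N : ℝ) ^ 2 * (2 * ∑ i, q i * m.U (s i))| ≤
      (N : ℝ) ^ 2 * (2 * (m.Wc * ∑ i, |q i| * r i)) + (N : ℝ) ^ 2 * e * ((∑ i, |q i|) * m.W) := by
  have h1 : ∑ i, ∑ k, q i * m.w k * T i k - (N : ℝ) ^ 2 * (2 * ∑ i, q i * m.U (s i)) =
      ∑ i, ∑ k, q i * m.w k *
        (T i k - 2 * (N : ℝ) ^ 2 * Real.log (max (m.ρ k) ‖s i - m.c k‖)) := by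
    rw [Finset.mul_sum, Finset.mul_sum, ← Finset.sum_sub_distrib]
    refine Finset.sum_congr rfl fun i _ => ?_
    rw [SCirc.U, Finset.mul_sum, Finset.mul_sum, Finset.mul_sum, ← Finset.sum_sub_distrib]
    exact Finset.sum_congr rfl fun k _ => by ring
  rw [h1]
  refine (Finset.abs_sum_le_sum_abs _ _).trans ?_
  have h2 : ∀ i, |∑ k, q i * m.w k * (T i k -
        2 * (N : ℝ) ^ 2 * Real.log (max (m.ρ k) ‖s i - m.c k‖))| ≤
      ∑ k, |q i| * |m.w k| * ((N : ℝ) ^ 2 * (2 * (r i / m.ρ k)) + (N : ℝ) ^ 2 * e) := by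
    intro i
    refine (Finset.abs_sum_le_sum_abs _ _).trans (Finset.sum_le_sum fun k _ => ?_)
    rw [abs_mul, abs_mul]
    exact mul_le_mul_of_nonneg_left (h i k) (by positivity)
  refine (Finset.sum_le_sum fun i _ => h2 i).trans (le_of_eq ?_)
  simp only [mul_add, Finset.sum_add_distrib]
  congr 1
  · rw [SCirc.Wc, Finset.sum_mul_sum, Finset.sum_comm, Finset.mul_sum, Finset.mul_sum]
    refine Finset.sum_congr rfl fun k _ => ?_
    rw [Finset.mul_sum, Finset.mul_sum]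
    exact Finset.sum_congr rfl fun i _ => by ring
  · rw [SCirc.W, Finset.sum_mul_sum, Finset.mul_sum]
    refine Finset.sum_congr rfl fun i _ => ?_
    rw [Finset.mul_sum]
    exact Finset.sum_congr rfl fun k _ => by ring

lemma sum_self {y : κ → ℂ → ℂ} {T : κ → κ → ℝ}
    (h : ∀ k' k, |T k' k - 2 * N * ∑ ζ ∈ mu N, Real.log (max (m.ρ k) ‖y k' ζ - m.c k‖)| ≤
      (N : ℝ) ^ 2 * e)
    (hU : ∀ k, m.w k * (N * circleAverage m.U (m.c k) (m.ρ k)) ≤
      m.w k * ∑ ζ ∈ mu N, m.U (y k ζ)) :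
    (N : ℝ) ^ 2 * (2 * m.En) - (N : ℝ) ^ 2 * e * m.W ^ 2 ≤
      ∑ k', ∑ k, m.w k' * m.w k * T k' k := by
  have h1 : |∑ k', ∑ k, m.w k' * m.w k * T k' k -
      2 * N * ∑ k', m.w k' * ∑ ζ ∈ mu N, m.U (y k' ζ)| ≤ (N : ℝ) ^ 2 * e * m.W ^ 2 := by
    have h2 : ∑ k', ∑ k, m.w k' * m.w k * T k' k -
        2 * N * ∑ k', m.w k' * ∑ ζ ∈ mu N, m.U (y k' ζ) =
        ∑ k', ∑ k, m.w k' * m.w k * (T k' k -
          2 * N * ∑ ζ ∈ mu N, Real.log (max (m.ρ k) ‖y k' ζ - m.c k‖)) := by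
      rw [Finset.mul_sum, ← Finset.sum_sub_distrib]
      refine Finset.sum_congr rfl fun k' _ => ?_
      have h3 : ∑ ζ ∈ mu N, m.U (y k' ζ) =
          ∑ k, m.w k * ∑ ζ ∈ mu N, Real.log (max (m.ρ k) ‖y k' ζ - m.c k‖) := by
        simp only [SCirc.U]
        rw [Finset.sum_comm]
        refine Finset.sum_congr rfl fun k _ => ?_
        rw [Finset.mul_sum]
      rw [h3, Finset.mul_sum, Finset.mul_sum, ← Finset.sum_sub_distrib]
      exact Finset.sum_congr rfl fun k _ => by ring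
    rw [h2]
    refine (Finset.abs_sum_le_sum_abs _ _).trans ?_
    have h3 : ∀ k', |∑ k, m.w k' * m.w k * (T k' k -
          2 * N * ∑ ζ ∈ mu N, Real.log (max (m.ρ k) ‖y k' ζ - m.c k‖))| ≤
        ∑ k, |m.w k'| * |m.w k| * ((N : ℝ) ^ 2 * e) := by
      intro k'
      refine (Finset.abs_sum_le_sum_abs _ _).trans (Finset.sum_le_sum fun k _ => ?_)
      rw [abs_mul, abs_mul]
      exact mul_le_mul_of_nonneg_left (h k' k) (by positivity)
    refine (Finset.sum_le_sum fun k' _ => h3 k').trans (le_of_eq ?_)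
    rw [SCirc.W, sq (∑ k, |m.w k|), Finset.sum_mul_sum, Finset.mul_sum]
    refine Finset.sum_congr rfl fun k' _ => ?_
    rw [Finset.mul_sum]
    exact Finset.sum_congr rfl fun k _ => by ring
  have h2 : (N : ℝ) * m.En ≤ ∑ k', m.w k' * ∑ ζ ∈ mu N, m.U (y k' ζ) := by
    refine le_trans (le_of_eq ?_) (Finset.sum_le_sum fun k' _ => hU k')
    rw [SCirc.En, Finset.mul_sum]
    exact Finset.sum_congr rfl fun k _ => by ring
  have h3 := (abs_le.1 h1).1
  have h4 := mul_le_mul_of_nonneg_left h2 (by positivity : (0 : ℝ) ≤ 2 * (N : ℝ))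
  have h5 : (N : ℝ) ^ 2 * (2 * m.En) = 2 * N * (N * m.En) := by ring
  rw [h5]
  linarith

end sums

/-- the final real arithmetic -/
lemma arith_final {n2 X Y Z D Q En Wc W e T1 T2 T3 : ℝ} (hn : 0 < n2)
    (hc : T1 + -D * T2 + (-D * T2 + D ^ 2 * T3) ≤ 0)
    (B1 : n2 * (2 * X) - n2 * e * Q ^ 2 ≤ T1)
    (B2 : |T2 - n2 * (2 * Y)| ≤ n2 * (2 * (Wc * Z)) + n2 * e * (Q * W))
    (B3 : n2 * (2 * En) - n2 * e * W ^ 2 ≤ T3) :
    X ≤ 2 * D * Y - D ^ 2 * En + 2 * |D| * Wc * Z + e * (Q + |D| * W) ^ 2 / 2 := by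
  have hDa : -D * T2 ≥ -D * (n2 * (2 * Y)) -
      |D| * (n2 * (2 * (Wc * Z)) + n2 * e * (Q * W)) := by
    have h1 : |D * (T2 - n2 * (2 * Y))| ≤
        |D| * (n2 * (2 * (Wc * Z)) + n2 * e * (Q * W)) := by
      rw [abs_mul]
      exact mul_le_mul_of_nonneg_left B2 (abs_nonneg _)
    have h2 := (abs_le.1 h1).2
    linarith
  have hD2 : |D| ^ 2 = D ^ 2 := sq_abs D
  have hD3 := mul_le_mul_of_nonneg_left B3 (sq_nonneg D)
  have h1 : (Q + |D| * W) ^ 2 = Q ^ 2 + 2 * (|D| * (Q * W)) + D ^ 2 * W ^ 2 := by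
    rw [← hD2]; ring
  have hfin : n2 * X ≤ n2 * (2 * D * Y - D ^ 2 * En + 2 * |D| * Wc * Z +
      e * (Q + |D| * W) ^ 2 / 2) := by
    rw [h1]
    linarith
  exact le_of_mul_le_mul_left hfin hn

/-- the inequality before the limits -/
lemma energy_pre (m : SCirc κ) {ι : Type*} [Fintype ι] (s : ι → ℂ) (r : ι → ℝ)
    (hr : ∀ i, 0 < r i) (q : ι → ℝ) (g : ι → ι → ℝ)
    (hg : ∀ i j, (0 ≤ q i * q j ∧ g i j ≤ q i * q j * Real.log (max (r i) ‖s i - s j‖)) ∨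
      (q i * q j ≤ 0 ∧ r i + r j ≤ ‖s i - s j‖ ∧ g i j ≤ q i * q j * Real.log ‖s i - s j‖)) :
    ∃ S1 S2 : ℝ, ∀ ε : ℝ, 0 < ε → ∀ᶠ N : ℕ in atTop,
      ∑ i, ∑ j, g i j ≤ 2 * (∑ i, q i) * ∑ i, q i * m.U (s i) - (∑ i, q i) ^ 2 * m.En +
        2 * |∑ i, q i| * m.Wc * (∑ i, |q i| * r i) +
        (4 * √ε * S1 + ε * S2 + 4 * Real.log 2 / N) * ((∑ i, |q i|) + |∑ i, q i| * m.W) ^ 2 / 2 := by
  let a : ι ⊕ κ → ℂ := Sum.elim s m.c
  let rr : ι ⊕ κ → ℝ := Sum.elim r m.ρ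
  have hrr : ∀ p, 0 < rr p := by
    rintro (i | k)
    · exact hr i
    · exact m.ρ_pos k
  set S1 : ℝ := ∑ p, 1 / rr p with hS1
  set S2 : ℝ := ∑ p, 1 / rr p ^ 2 with hS2
  have hS1p : ∀ p, 1 / rr p ≤ S1 := fun p => Finset.single_le_sum (f := fun p => 1 / rr p)
    (fun p _ => (one_div_pos.2 (hrr p)).le) (Finset.mem_univ p)
  have hS2p : ∀ p, 1 / rr p ^ 2 ≤ S2 := fun p => Finset.single_le_sum (f := fun p => 1 / rr p ^ 2)
    (fun p _ => (one_div_pos.2 (pow_pos (hrr p) 2)).le) (Finset.mem_univ p)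
  refine ⟨S1, S2, fun ε hε => ?_⟩
  -- radius of validity
  obtain ⟨R, hR, hRε, hRp⟩ : ∃ R : ℝ, 0 < R ∧ √ε ≤ R ∧ ∀ p p' : ι ⊕ κ,
      (rr p + ‖a p - a p'‖ + rr p') ^ 2 + ε ≤ R ^ 2 := by
    have hnn : ∀ p p', 0 ≤ rr p + ‖a p - a p'‖ + rr p' := fun p p' => by
      have := (hrr p).le; have := (hrr p').le; positivity
    have h0 : 0 ≤ ∑ p, ∑ p', (rr p + ‖a p - a p'‖ + rr p') :=
      Finset.sum_nonneg fun p _ => Finset.sum_nonneg fun p' _ => hnn p p'
    refine ⟨∑ p, ∑ p', (rr p + ‖a p - a p'‖ + rr p') + √ε + 1, ?_, ?_, ?_⟩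
    · have := Real.sqrt_nonneg ε
      linarith
    · linarith
    · intro p p'
      have h1 : rr p + ‖a p - a p'‖ + rr p' ≤
          ∑ p, ∑ p', (rr p + ‖a p - a p'‖ + rr p') := by
        refine le_trans ?_ (Finset.single_le_sum (f := fun p => ∑ p',
          (rr p + ‖a p - a p'‖ + rr p')) (fun p _ => Finset.sum_nonneg fun p' _ => hnn p p')
          (Finset.mem_univ p))
        exact Finset.single_le_sum (f := fun p' => rr p + ‖a p - a p'‖ + rr p')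
          (fun p' _ => hnn p p') (Finset.mem_univ p')
      set X := ∑ p, ∑ p', (rr p + ‖a p - a p'‖ + rr p')
      have h5 : √ε ^ 2 = ε := Real.sq_sqrt hε.le
      have h6 := Real.sqrt_nonneg ε
      have h7 : (rr p + ‖a p - a p'‖ + rr p') ^ 2 ≤ X ^ 2 := pow_le_pow_left₀ (hnn p p') h1 2
      nlinarith [mul_nonneg ((hnn p p').trans h1) h6]
  have hq1 : 1 - √ε / R < 1 := by
    have : 0 < √ε / R := div_pos (Real.sqrt_pos.2 hε) hR
    linarith
  have hev : ∀ᶠ N : ℕ in atTop, (1 - √ε / R) ^ N ≤ 1 / 2 := by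
    by_cases h0 : 0 ≤ 1 - √ε / R
    · have := tendsto_pow_atTop_nhds_zero_of_lt_one h0 hq1
      exact (this.eventually (gt_mem_nhds (by norm_num : (0:ℝ) < 1 / 2))).mono fun N h => h.le
    · exact absurd (sub_nonneg.2 ((div_le_one hR).2 hRε)) h0
  filter_upwards [eventually_gt_atTop 0, hev] with N hN hNR
  have hNr : (0 : ℝ) < N := Nat.cast_pos.2 hN
  choose vk hvk hvkU using fun k => exists_signed_rotation m k hN
  let v : ι ⊕ κ → ℂ := Sum.elim (fun _ => 1) vk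
  have hv : ∀ p, ‖v p‖ = 1 := by
    rintro (i | k)
    · simp [v]
    · exact hvk k
  set e : ℝ := 4 * √ε * S1 + ε * S2 + 4 * Real.log 2 / N with he
  have hsε := Real.sqrt_nonneg ε
  have hl2 : 0 < Real.log 2 := Real.log_pos (by norm_num)
  have hS1n : 0 ≤ S1 := Finset.sum_nonneg fun p _ => (one_div_pos.2 (hrr p)).le
  have hS2n : 0 ≤ S2 := Finset.sum_nonneg fun p _ => (one_div_pos.2 (pow_pos (hrr p) 2)).le
  have hN2 : (N : ℝ) ^ 2 * e = (N : ℝ) ^ 2 * (4 * √ε * S1) + (N : ℝ) ^ 2 * (ε * S2) +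
      4 * N * Real.log 2 := by
    rw [he]
    field_simp
  have he1 : ∀ p p', (N : ℝ) ^ 2 * (2 * √ε / rr p + 2 * √ε / rr p') + 4 * N * Real.log 2 ≤
      (N : ℝ) ^ 2 * e := by
    intro p p'
    have h1 := mul_le_mul_of_nonneg_left (hS1p p) (by positivity : (0 : ℝ) ≤ 2 * √ε)
    have h2 := mul_le_mul_of_nonneg_left (hS1p p') (by positivity : (0 : ℝ) ≤ 2 * √ε)
    rw [mul_one_div] at h1 h2
    have h3 : 2 * √ε / rr p + 2 * √ε / rr p' ≤ 4 * √ε * S1 := by linarith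
    have h4 := mul_le_mul_of_nonneg_left h3 (sq_nonneg (N : ℝ))
    have h5 : 0 ≤ (N : ℝ) ^ 2 * (ε * S2) := by positivity
    rw [hN2]
    linarith
  have he2 : ∀ p, (N : ℝ) ^ 2 * (ε / rr p ^ 2) + 4 * N * Real.log 2 ≤ (N : ℝ) ^ 2 * e := by
    intro p
    have h1 := mul_le_mul_of_nonneg_left (hS2p p) hε.le
    rw [mul_one_div] at h1
    have h4 := mul_le_mul_of_nonneg_left h1 (sq_nonneg (N : ℝ))
    have h5 : 0 ≤ (N : ℝ) ^ 2 * (4 * √ε * S1) := by positivity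
    rw [hN2]
    linarith
  have B1 := sum_pairs (N := N) (e := e) (q := q) (g := g)
    (T := fun i j => TT a rr v ε N (Sum.inl i) (Sum.inl j)) fun i j =>
      pair_bound hv hrr hε hN hR hRp hNR he1 he2 (p := Sum.inl i) (p' := Sum.inl j)
        (Q := q i * q j) (g := g i j) (hg i j)
  have B2 := sum_cross m (N := N) (e := e) (s := s) (q := q) (r := r)
    (T := fun i k => TT a rr v ε N (Sum.inl i) (Sum.inr k)) fun i k =>
      centre_bound hv hrr hε hN hR hRp hNR he1 he2 (Sum.inl i) (Sum.inr k)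
  have B3 := sum_self m (N := N) (e := e) (y := fun k ζ => m.c k + m.ρ k * vk k * ζ)
    (T := fun k' k => TT a rr v ε N (Sum.inr k') (Sum.inr k))
    (fun k' k => avg_bound hv hrr hε hN hR hRp hNR he1 he2 (Sum.inr k') (Sum.inr k)) hvkU
  -- the inequality
  let qq : ι ⊕ κ → ℝ := Sum.elim q (fun k => -((∑ i, q i) * m.w k))
  have hqq : ∑ p, qq p = 0 := by
    simp only [qq, Fintype.sum_sum_type, Sum.elim_inl, Sum.elim_inr, Finset.sum_neg_distrib]
    rw [← Finset.mul_sum, m.w_sum, mul_one]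
    ring
  have hc := TT_cpd (a := a) (r := rr) (v := v) (N := N) qq hqq hε
  simp only [Fintype.sum_sum_type, qq, Sum.elim_inl, Sum.elim_inr, Finset.sum_add_distrib] at hc
  have c2 : ∑ i, ∑ k, q i * -((∑ i, q i) * m.w k) * TT a rr v ε N (Sum.inl i) (Sum.inr k) =
      -(∑ i, q i) * ∑ i, ∑ k, q i * m.w k * TT a rr v ε N (Sum.inl i) (Sum.inr k) := by
    rw [Finset.mul_sum]
    refine Finset.sum_congr rfl fun i _ => ?_
    rw [Finset.mul_sum]
    exact Finset.sum_congr rfl fun k _ => by ring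
  have c2' : ∑ k, ∑ i, -((∑ i, q i) * m.w k) * q i * TT a rr v ε N (Sum.inr k) (Sum.inl i) =
      -(∑ i, q i) * ∑ i, ∑ k, q i * m.w k * TT a rr v ε N (Sum.inl i) (Sum.inr k) := by
    rw [← c2, Finset.sum_comm]
    refine Finset.sum_congr rfl fun i _ => Finset.sum_congr rfl fun k _ => ?_
    rw [TT_comm]; ring
  have c3 : ∑ k', ∑ k, -((∑ i, q i) * m.w k') * -((∑ i, q i) * m.w k) *
      TT a rr v ε N (Sum.inr k') (Sum.inr k) =
      (∑ i, q i) ^ 2 * ∑ k', ∑ k, m.w k' * m.w k * TT a rr v ε N (Sum.inr k') (Sum.inr k) := by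
    rw [Finset.mul_sum]
    refine Finset.sum_congr rfl fun i _ => ?_
    rw [Finset.mul_sum]
    exact Finset.sum_congr rfl fun k _ => by ring
  rw [c2, c2', c3] at hc
  exact arith_final (n2 := (N : ℝ) ^ 2) (by positivity) hc B1 B2 B3

/-- **Signed energy inequality**, exact form.  Charges `q i` on the circles `(s i, r i)`, total
charge `D`; `g i j` is any lower bound of the mutual energies: `q_i q_j log (max r_i |s_i - s_j|)`
for charges of the same sign, `q_i q_j log |s_i - s_j|` for opposite signs if the circles are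
separated. -/
theorem energy_general (m : SCirc κ) {ι : Type*} [Fintype ι] (s : ι → ℂ) (r : ι → ℝ)
    (hr : ∀ i, 0 < r i) (q : ι → ℝ) (g : ι → ι → ℝ)
    (hg : ∀ i j, (0 ≤ q i * q j ∧ g i j ≤ q i * q j * Real.log (max (r i) ‖s i - s j‖)) ∨
      (q i * q j ≤ 0 ∧ r i + r j ≤ ‖s i - s j‖ ∧ g i j ≤ q i * q j * Real.log ‖s i - s j‖)) :
    ∑ i, ∑ j, g i j ≤ 2 * (∑ i, q i) * ∑ i, q i * m.U (s i) - (∑ i, q i) ^ 2 * m.En +
        2 * |∑ i, q i| * m.Wc * (∑ i, |q i| * r i) := by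
  obtain ⟨S1, S2, h⟩ := energy_pre m s r hr q g hg
  set B := 2 * (∑ i, q i) * ∑ i, q i * m.U (s i) - (∑ i, q i) ^ 2 * m.En +
        2 * |∑ i, q i| * m.Wc * (∑ i, |q i| * r i) with hB
  set C := ((∑ i, |q i|) + |∑ i, q i| * m.W) ^ 2 with hC
  have h1 : ∀ ε : ℝ, 0 < ε → ∑ i, ∑ j, g i j ≤ B + (4 * √ε * S1 + ε * S2) * C / 2 := by
    intro ε hε
    have hlim : Tendsto (fun N : ℕ => B + (4 * √ε * S1 + ε * S2 + 4 * Real.log 2 / (N : ℝ)) * C / 2)
        atTop (𝓝 (B + (4 * √ε * S1 + ε * S2 + 0) * C / 2)) :=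
      tendsto_const_nhds.add (((tendsto_const_nhds.add
        (tendsto_const_div_atTop_nhds_zero_nat _)).mul_const C).div_const 2)
    rw [add_zero] at hlim
    exact ge_of_tendsto hlim (h ε hε)
  have hcont : Continuous fun ε : ℝ => B + (4 * √ε * S1 + ε * S2) * C / 2 := by fun_prop
  have hlim : Tendsto (fun ε : ℝ => B + (4 * √ε * S1 + ε * S2) * C / 2) (𝓝[>] 0) (𝓝 B) := by
    have h2 := hcont.tendsto 0
    simp only [Real.sqrt_zero, mul_zero, zero_mul, add_zero, zero_div] at h2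
    exact h2.mono_left nhdsWithin_le_nhds
  refine ge_of_tendsto hlim ?_
  filter_upwards [self_mem_nhdsWithin] with ε hε
  exact h1 ε hε

end Vale.Agent.P030.H3
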