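import Vale.Agent.P030.H54.Energy
import Vale.Agent.P030.H3.SignedEnergy

/-!
# Energy bound for Cauchy–Vandermonde products (step T2, product form)
-/

namespace Vale.Agent.P030.H3

open Finset Filter Topology MeasureTheory Real
open Vale.Agent.P030.H54

set_option linter.unusedSectionVars false

variable {κ : Type*} [Fintype κ]

/-- a positive circle measure is a signed one -/
noncomputable def SCirc.ofCirc (m : CircMeas κ) : SCirc κ :=
  ⟨m.w, m.c, m.ρ, m.w_sum, m.ρ_pos⟩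

/-- absolute Vandermonde product -/
noncomputable def avd {n : ℕ} (y : Fin n → ℂ) : ℝ := ∏ i, ∏ j ∈ Finset.Ioi i, ‖y j - y i‖

lemma avd_nonneg {n : ℕ} (y : Fin n → ℂ) : 0 ≤ avd y :=
  Finset.prod_nonneg fun _ _ => Finset.prod_nonneg fun _ _ => norm_nonneg _

lemma avd_ne_iff {n : ℕ} {y : Fin n → ℂ} (h : avd y ≠ 0) {i j : Fin n} (hij : i ≠ j) :
    ‖y i - y j‖ ≠ 0 := by
  have hne : ∀ i, ∀ j ∈ Finset.Ioi i, ‖y j - y i‖ ≠ 0 := by
    intro i j hj
    have h1 := Finset.prod_ne_zero_iff.1 h i (Finset.mem_univ i)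
    exact Finset.prod_ne_zero_iff.1 h1 j hj
  rcases lt_or_gt_of_ne hij with h | h
  · rw [norm_sub_rev]; exact hne i j (Finset.mem_Ioi.2 h)
  · exact hne j i (Finset.mem_Ioi.2 h)

lemma log_avd {n : ℕ} {y : Fin n → ℂ} (h : avd y ≠ 0) :
    2 * Real.log (avd y) = ∑ i, ∑ j, Real.log ‖y i - y j‖ := by
  have h3 := sum_sum_symm (fun i j => Real.log ‖y i - y j‖) (fun i j => by rw [norm_sub_rev])
    (fun i => by simp)
  rw [h3, avd, Real.log_prod fun i _ => Finset.prod_ne_zero_iff.2 fun j hj =>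
    avd_ne_iff h (Finset.mem_Ioi.1 hj).ne']
  congr 1
  exact Finset.sum_congr rfl fun i _ => Real.log_prod fun j hj =>
    avd_ne_iff h (Finset.mem_Ioi.1 hj).ne'

/-- **Energy bound for Cauchy–Vandermonde products.**  `y` are the positive and `x` the negative
charges; around every point a radius (arbitrary, positive) such that positive and negative discs
are disjoint.  The measure `m` is an arbitrary signed combination of circles of total mass one. -/
theorem cauchyVandermonde_le (m : SCirc κ) {n₁ n₂ : ℕ} (y : Fin n₁ → ℂ) (x : Fin n₂ → ℂ)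
    (ry : Fin n₁ → ℝ) (rx : Fin n₂ → ℝ) (hry : ∀ i, 0 < ry i) (hrx : ∀ i, 0 < rx i)
    (hsep : ∀ i j, ry i + rx j ≤ ‖y i - x j‖) :
    avd y * avd x ≤ (∏ i, ∏ j, ‖y i - x j‖) *
      Real.exp (((n₁ : ℝ) - n₂) * (∑ i, m.U (y i) - ∑ i, m.U (x i)) -
        ((n₁ : ℝ) - n₂) ^ 2 * m.En / 2 + |(n₁ : ℝ) - n₂| * m.Wc * (∑ i, ry i + ∑ i, rx i) -
        (∑ i, Real.log (ry i) + ∑ i, Real.log (rx i)) / 2) := by
  have hyx : ∀ i j, 0 < ‖y i - x j‖ := fun i j =>
    lt_of_lt_of_le (add_pos (hry i) (hrx j)) (hsep i j)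
  have hpr : 0 < ∏ i, ∏ j, ‖y i - x j‖ :=
    Finset.prod_pos fun i _ => Finset.prod_pos fun j _ => hyx i j
  by_cases hy0 : avd y = 0
  · rw [hy0, zero_mul]; positivity
  by_cases hx0 : avd x = 0
  · rw [hx0, mul_zero]; positivity
  have hyp : 0 < avd y := lt_of_le_of_ne (avd_nonneg y) (Ne.symm hy0)
  have hxp : 0 < avd x := lt_of_le_of_ne (avd_nonneg x) (Ne.symm hx0)
  let s : Fin n₁ ⊕ Fin n₂ → ℂ := Sum.elim y x
  let r : Fin n₁ ⊕ Fin n₂ → ℝ := Sum.elim ry rx
  let q : Fin n₁ ⊕ Fin n₂ → ℝ := Sum.elim (fun _ => 1) (fun _ => -1)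
  let g : Fin n₁ ⊕ Fin n₂ → Fin n₁ ⊕ Fin n₂ → ℝ := fun i j =>
    q i * q j * Real.log ‖s i - s j‖ + if i = j then Real.log (r i) else 0
  have hr : ∀ i, 0 < r i := by
    rintro (i | i)
    · exact hry i
    · exact hrx i
  have hmain := energy_general m s r hr q g (by
    have hsame : ∀ i j : Fin n₁ ⊕ Fin n₂, q i * q j = 1 → (i ≠ j → ‖s i - s j‖ ≠ 0) →
        g i j ≤ q i * q j * Real.log (max (r i) ‖s i - s j‖) := by
      intro i j hq hne
      simp only [g, hq, one_mul]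
      by_cases hij : i = j
      · subst hij
        simp [max_eq_left (hr i).le]
      · rw [if_neg hij, add_zero]
        exact Real.log_le_log (lt_of_le_of_ne (norm_nonneg _) (Ne.symm (hne hij)))
          (le_max_right _ _)
    rintro (i | i) (j | j)
    · refine Or.inl ⟨by simp [q], hsame _ _ (by simp [q]) fun hij => ?_⟩
      exact avd_ne_iff hy0 fun h => hij (by rw [h])
    · refine Or.inr ⟨by simp [q], hsep i j, ?_⟩
      simp [g]
    · refine Or.inr ⟨by simp [q], ?_, ?_⟩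
      · have := hsep j i
        simp only [r, s, Sum.elim_inl, Sum.elim_inr]
        rw [norm_sub_rev]; linarith
      · simp [g]
    · refine Or.inl ⟨by simp [q], hsame _ _ (by simp [q]) fun hij => ?_⟩
      exact avd_ne_iff hx0 fun h => hij (by rw [h]))
  have hG : ∑ i, ∑ j, g i j = 2 * Real.log (avd y) + 2 * Real.log (avd x) -
      2 * Real.log (∏ i, ∏ j, ‖y i - x j‖) + (∑ i, Real.log (ry i) + ∑ i, Real.log (rx i)) := by
    have hl : Real.log (∏ i, ∏ j, ‖y i - x j‖) = ∑ i, ∑ j, Real.log ‖y i - x j‖ := by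
      rw [Real.log_prod fun i _ => Finset.prod_ne_zero_iff.2 fun j _ => (hyx i j).ne']
      exact Finset.sum_congr rfl fun i _ => Real.log_prod fun j _ => (hyx i j).ne'
    have hl' : ∑ i, ∑ j, Real.log ‖x i - y j‖ = ∑ i, ∑ j, Real.log ‖y i - x j‖ := by
      rw [Finset.sum_comm]
      exact Finset.sum_congr rfl fun i _ => Finset.sum_congr rfl fun j _ => by rw [norm_sub_rev]
    rw [log_avd hy0, log_avd hx0, hl]
    simp only [g, Finset.sum_add_distrib, Finset.sum_ite_eq, Finset.mem_univ, if_true,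
      Fintype.sum_sum_type, q, s, r, Sum.elim_inl, Sum.elim_inr, one_mul, mul_one, neg_mul,
      mul_neg, Finset.sum_neg_distrib, hl']
    ring
  have hD : ∑ i, q i = (n₁ : ℝ) - n₂ := by
    simp [q, sub_eq_add_neg]
  have hU : ∑ i, q i * m.U (s i) = ∑ i, m.U (y i) - ∑ i, m.U (x i) := by
    simp [q, s, sub_eq_add_neg]
  have hZ : ∑ i, |q i| * r i = ∑ i, ry i + ∑ i, rx i := by
    simp [q, r]
  rw [hG, hD, hU, hZ] at hmain
  rw [← Real.log_le_log_iff (by positivity) (by positivity), Real.log_mul hyp.ne' hxp.ne',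
    Real.log_mul hpr.ne' (Real.exp_pos _).ne', Real.log_exp]
  linarith

/-- the same with one common separation `δ` -/
theorem cauchyVandermonde_le_sep (m : SCirc κ) {n₁ n₂ : ℕ} (y : Fin n₁ → ℂ) (x : Fin n₂ → ℂ)
    {δ : ℝ} (hδ : 0 < δ) (hsep : ∀ i j, δ ≤ ‖y i - x j‖) :
    avd y * avd x ≤ (∏ i, ∏ j, ‖y i - x j‖) *
      Real.exp (((n₁ : ℝ) - n₂) * (∑ i, m.U (y i) - ∑ i, m.U (x i)) -
        ((n₁ : ℝ) - n₂) ^ 2 * m.En / 2 +
        (n₁ + n₂) * (|(n₁ : ℝ) - n₂| * m.Wc * (δ / 2) - Real.log (δ / 2) / 2)) := by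
  refine (cauchyVandermonde_le m y x (fun _ => δ / 2) (fun _ => δ / 2) (fun _ => by positivity)
    (fun _ => by positivity) (fun i j => by have := hsep i j; linarith)).trans (le_of_eq ?_)
  congr 2
  simp only [Finset.sum_const, Finset.card_univ, Fintype.card_fin, nsmul_eq_mul]
  ring

end Vale.Agent.P030.H3
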