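import Vale.Agent.P030.H810.KcEx

/-!
# P030: `Re (A3 conj A0) > 0` on the upper half plane

`A0, A1, A2, A3` are the four branches of `H810/KV.lean` for `Kc = H3.Kc`.  Consequence:
`α A0 + β A3 ≠ 0` on the upper half plane whenever `Re (α conj β) ≥ 0`, `(α, β) ≠ 0`; in particular
`A3 + i r A0 ≠ 0` for every real `r`.
-/

open Filter Topology Complex Metric Set ComplexConjugate

namespace Vale.Agent.P030.H3.KPos

open Vale.Agent.P030.H810

noncomputable section

/-- the four branches -/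
def b0 (u : ℂ) : ℂ := H810.A0 H3.Kc u
def b1 (u : ℂ) : ℂ := H810.A1 H3.Kc u
def b2 (u : ℂ) : ℂ := H810.A2 H3.Kc u
def b3 (u : ℂ) : ℂ := H810.A3 H3.Kc u

/-- the positive quantity -/
def P (u : ℂ) : ℝ := (b3 u * conj (b0 u)).re

lemma pi_ne : (Real.pi : ℂ) ≠ 0 := Complex.ofReal_ne_zero.2 Real.pi_ne_zero

lemma b0_ne {u : ℂ} (hu : u ∈ H3.OmK) : b0 u ≠ 0 := by
  unfold b0 H810.A0
  exact mul_ne_zero (div_ne_zero pi_ne two_ne_zero) (H3.Kc_ne_zero hu)

lemma b1_rel {u : ℂ} (hu : 0 < u.im) : b1 u = b3 u + 2 * I * b0 u := isKc.A1_rel hu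

lemma b2_rel {u : ℂ} (hu : 0 < u.im) : b2 u = b0 u - I * b3 u := isKc.A2_rel hu

/-! ### the four forms of `P` -/

lemma P_eq2 {u : ℂ} (hu : 0 < u.im) : P u = (b3 u * conj (b2 u)).re := by
  have h : b0 u = b2 u + I * b3 u := by rw [b2_rel hu]; ring
  unfold P
  rw [h]
  simp only [map_add, map_mul, Complex.conj_I, Complex.mul_re, Complex.mul_im, Complex.add_re,
    Complex.add_im, Complex.conj_re, Complex.conj_im, Complex.neg_re, Complex.neg_im,
    Complex.I_re, Complex.I_im]
  ring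

lemma P_eq1 {u : ℂ} (hu : 0 < u.im) : P u = (b1 u * conj (b0 u)).re := by
  have h : b3 u = b1 u - 2 * I * b0 u := by rw [b1_rel hu]; ring
  unfold P
  rw [h]
  simp only [Complex.mul_re, Complex.mul_im, Complex.sub_re,
    Complex.sub_im, Complex.conj_re, Complex.conj_im, Complex.I_re, Complex.I_im]
  norm_num
  ring

lemma P_eq12 {u : ℂ} (hu : 0 < u.im) : P u = -(b1 u * conj (b2 u)).re := by
  have h3 : b3 u = 2 * I * b2 u - b1 u := by
    rw [b1_rel hu, b2_rel hu]
    linear_combination (2 * b3 u) * Complex.I_mul_I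
  have h0 : b0 u = -b2 u - I * b1 u := by
    have h : b0 u = b2 u + I * b3 u := by rw [b2_rel hu]; ring
    rw [h, h3]
    linear_combination (2 * b2 u) * Complex.I_mul_I
  unfold P
  rw [h3, h0]
  simp only [map_sub, map_neg, map_mul, Complex.conj_I, Complex.mul_re, Complex.mul_im,
    Complex.sub_re, Complex.sub_im, Complex.conj_re, Complex.conj_im, Complex.neg_re,
    Complex.neg_im, Complex.I_re, Complex.I_im]
  norm_num
  ring

/-! ### real values -/

lemma Kc_real {x : ℝ} (hx : |x| < 1) : ∃ c : ℝ, 0 < c ∧ H3.Kc x = c := by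
  have hm : (x : ℂ) ∈ H3.OmK := by
    rintro ⟨_, h⟩
    rw [Complex.ofReal_re] at h
    exact absurd hx (not_lt.2 h)
  refine ⟨(H3.Kc x).re, H3.Kc_re hm (by simp), ?_⟩
  have h := H3.Kc_conj x
  rw [Complex.conj_ofReal] at h
  exact (Complex.conj_eq_iff_re.1 h.symm).symm

lemma b0_real {x : ℝ} (hx : |x| < 1) : ∃ c : ℝ, 0 < c ∧ b0 x = c := by
  obtain ⟨c, hc, h⟩ := Kc_real hx
  refine ⟨Real.pi / 2 * c, by have := Real.pi_pos; positivity, ?_⟩
  unfold b0 H810.A0
  rw [h]
  push_cast
  ring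

lemma b3_real {x : ℝ} (hx : 0 < x) : ∃ c : ℝ, 0 < c ∧ b3 x = c := by
  have h1 : |(x - 1) / (x + 1)| < 1 := by
    rw [abs_lt, lt_div_iff₀ (by linarith), div_lt_one (by linarith)]
    constructor <;> linarith
  obtain ⟨c, hc, h⟩ := Kc_real h1
  refine ⟨Real.pi / (1 + x) * c, by have := Real.pi_pos; positivity, ?_⟩
  unfold b3 H810.A3
  have e : ((x : ℂ) - 1) / (x + 1) = ((((x - 1) / (x + 1) : ℝ)) : ℂ) := by push_cast; ring
  rw [e, h]
  push_cast
  ring

lemma b1_real {x : ℝ} (hx : x < 0) : ∃ c : ℝ, 0 < c ∧ b1 x = c := by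
  have h1 : |(x + 1) / (x - 1)| < 1 := by
    have hx1 : x - 1 < 0 := by linarith
    rw [abs_lt, lt_div_iff_of_neg hx1, div_lt_iff_of_neg hx1]
    constructor <;> linarith
  obtain ⟨c, hc, h⟩ := Kc_real h1
  refine ⟨Real.pi / (1 - x) * c, by
    have := Real.pi_pos
    have h2 : 0 < 1 - x := by linarith
    positivity, ?_⟩
  unfold b1 H810.A1
  have e : ((x : ℂ) + 1) / (x - 1) = ((((x + 1) / (x - 1) : ℝ)) : ℂ) := by push_cast; ring
  rw [e, h]
  push_cast
  ring

lemma b2_real {x : ℝ} (hx : 1 < |x|) : ∃ c : ℝ, 0 < x * c ∧ b2 x = c := by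
  have hx0 : x ≠ 0 := by
    rintro rfl
    simp at hx
    linarith
  have h1 : |x⁻¹| < 1 := by rw [abs_inv]; exact inv_lt_one_of_one_lt₀ hx
  obtain ⟨c, hc, h⟩ := Kc_real h1
  refine ⟨Real.pi / 2 * (x⁻¹ * c), ?_, ?_⟩
  · have : x * (Real.pi / 2 * (x⁻¹ * c)) = Real.pi / 2 * c := by field_simp
    rw [this]
    have := Real.pi_pos
    positivity
  · unfold b2 H810.A2
    have e : ((x : ℂ))⁻¹ = ((x⁻¹ : ℝ) : ℂ) := by push_cast; ring
    rw [e, h]
    push_cast
    ring

/-! ### continuity -/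

lemma cont_b0 {u : ℂ} (hu : u ∈ H3.OmK) : ContinuousAt b0 u := by
  have h : ContinuousAt H3.Kc u := (isKc.analyticAt (mem_OmK_iff.2 hu)).continuousAt
  exact continuousAt_const.mul h

lemma cont_b3 {u : ℂ} (hu : u ∈ slitPlane) : ContinuousAt b3 u :=
  (isKc.analyticAt_A3 hu).continuousAt

lemma cont_b1 {u : ℂ} (hu : -u ∈ slitPlane) : ContinuousAt b1 u := by
  have h1 : ContinuousAt (fun w : ℂ => b3 (-w)) u :=
    ContinuousAt.comp (f := fun w : ℂ => -w) (g := b3) (cont_b3 hu) continuousAt_neg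
  refine h1.congr ?_
  have ho : IsOpen {w : ℂ | -w ∈ slitPlane} := isOpen_slitPlane.preimage continuous_neg
  filter_upwards [ho.mem_nhds hu] with w hw
  exact (H810.A1_eq hw).symm

lemma cont_b2 {u : ℂ} (h0 : u ≠ 0) (hu : u⁻¹ ∈ H3.OmK) : ContinuousAt b2 u := by
  have h : ContinuousAt H3.Kc u⁻¹ := (isKc.analyticAt (mem_OmK_iff.2 hu)).continuousAt
  have h1 : ContinuousAt (fun w : ℂ => H3.Kc w⁻¹) u :=
    ContinuousAt.comp (f := fun w : ℂ => w⁻¹) (g := H3.Kc) h (continuousAt_inv₀ h0)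
  exact continuousAt_const.mul ((continuousAt_inv₀ h0).mul h1)

lemma ofReal_mem_OmK {x : ℝ} (hx : |x| < 1) : (x : ℂ) ∈ H3.OmK := by
  rintro ⟨_, h⟩
  rw [Complex.ofReal_re] at h
  exact absurd hx (not_lt.2 h)

/-- near a real point which is not a cusp -/
lemma near_real {x : ℝ} (h0 : x ≠ 0) (h1 : x ≠ 1) (h2 : x ≠ -1) :
    ∀ᶠ u in 𝓝 (x : ℂ), 0 < u.im → 0 < P u := by
  rcases lt_or_ge |x| 1 with ha | ha
  · rcases lt_or_gt_of_ne h0 with hx | hx
    · -- `-1 < x < 0`
      obtain ⟨c, hc, e1⟩ := b1_real hx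
      obtain ⟨d, hd, e0⟩ := b0_real ha
      have hc1 : ContinuousAt b1 (x : ℂ) := cont_b1 (by
        left; simp only [Complex.neg_re, Complex.ofReal_re]; linarith)
      have hc0 : ContinuousAt b0 (x : ℂ) := cont_b0 (ofReal_mem_OmK ha)
      have hc : ContinuousAt (fun u => (b1 u * conj (b0 u)).re) (x : ℂ) :=
        Complex.continuous_re.continuousAt.comp (hc1.mul
          (Complex.continuous_conj.continuousAt.comp hc0))
      have hp : 0 < (b1 (x : ℂ) * conj (b0 (x : ℂ))).re := by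
        rw [e1, e0, Complex.conj_ofReal, ← Complex.ofReal_mul, Complex.ofReal_re]
        positivity
      filter_upwards [hc.eventually (lt_mem_nhds hp)] with u hu hi
      rw [P_eq1 hi]; exact hu
    · -- `0 < x < 1`
      obtain ⟨c, hc, e1⟩ := b3_real hx
      obtain ⟨d, hd, e0⟩ := b0_real ha
      have hc1 : ContinuousAt b3 (x : ℂ) := cont_b3 (by
        left; simp only [Complex.ofReal_re]; exact hx)
      have hc0 : ContinuousAt b0 (x : ℂ) := cont_b0 (ofReal_mem_OmK ha)
      have hc : ContinuousAt (fun u => (b3 u * conj (b0 u)).re) (x : ℂ) :=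
        Complex.continuous_re.continuousAt.comp (hc1.mul
          (Complex.continuous_conj.continuousAt.comp hc0))
      have hp : 0 < (b3 (x : ℂ) * conj (b0 (x : ℂ))).re := by
        rw [e1, e0, Complex.conj_ofReal, ← Complex.ofReal_mul, Complex.ofReal_re]
        positivity
      filter_upwards [hc.eventually (lt_mem_nhds hp)] with u hu hi
      exact hu
  · have ha' : 1 < |x| := lt_of_le_of_ne ha (fun h => by
      rcases abs_eq (zero_le_one' ℝ) |>.1 h.symm with h3 | h3
      · exact h1 h3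
      · exact h2 h3)
    have hx0 : (x : ℂ) ≠ 0 := Complex.ofReal_ne_zero.2 h0
    have hm2 : ((x : ℂ))⁻¹ ∈ H3.OmK := by
      rw [← Complex.ofReal_inv]
      exact ofReal_mem_OmK (by rw [abs_inv]; exact inv_lt_one_of_one_lt₀ ha')
    have hc2 : ContinuousAt b2 (x : ℂ) := cont_b2 hx0 hm2
    obtain ⟨d, hd, e2⟩ := b2_real ha'
    rcases lt_or_gt_of_ne h0 with hx | hx
    · -- `x < -1`
      obtain ⟨c, hc, e1⟩ := b1_real hx
      have hc1 : ContinuousAt b1 (x : ℂ) := cont_b1 (by
        left; simp only [Complex.neg_re, Complex.ofReal_re]; linarith)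
      have hcc : ContinuousAt (fun u => -(b1 u * conj (b2 u)).re) (x : ℂ) :=
        (Complex.continuous_re.continuousAt.comp (hc1.mul
          (Complex.continuous_conj.continuousAt.comp hc2))).neg
      have hp : 0 < -(b1 (x : ℂ) * conj (b2 (x : ℂ))).re := by
        rw [e1, e2, Complex.conj_ofReal, ← Complex.ofReal_mul, Complex.ofReal_re]
        have hd' : d < 0 := by nlinarith
        nlinarith
      filter_upwards [hcc.eventually (lt_mem_nhds hp)] with u hu hi
      rw [P_eq12 hi]; exact hu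
    · -- `1 < x`
      obtain ⟨c, hc, e1⟩ := b3_real hx
      have hc1 : ContinuousAt b3 (x : ℂ) := cont_b3 (by
        left; simp only [Complex.ofReal_re]; exact hx)
      have hcc : ContinuousAt (fun u => (b3 u * conj (b2 u)).re) (x : ℂ) :=
        Complex.continuous_re.continuousAt.comp (hc1.mul
          (Complex.continuous_conj.continuousAt.comp hc2))
      have hp : 0 < (b3 (x : ℂ) * conj (b2 (x : ℂ))).re := by
        rw [e1, e2, Complex.conj_ofReal, ← Complex.ofReal_mul, Complex.ofReal_re]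
        have hd' : 0 < d := by nlinarith
        positivity
      filter_upwards [hcc.eventually (lt_mem_nhds hp)] with u hu hi
      rw [P_eq2 hi]; exact hu

/-! ### cusps -/

/-- the germ of the log solution -/
def lg (t w : ℂ) : ℂ := -(kS t * (Complex.log w - 2 * (Real.log 2 : ℂ)) + H810.mS t)

lemma kS_zero : kS 0 = 1 := by
  rw [kS, H462.ev_at_zero]
  simp [T.serK]

lemma mZ_zero : H810.mS 0 = 0 := by
  rw [H810.mS, H462.ev_at_zero]
  simp [T.serM, T.cMs]

lemma cusp : ∃ r : ℝ, 0 < r ∧ r < 1 ∧ ∀ t w : ℂ, ‖t‖ < r → t ≠ 0 → ‖w‖ = ‖t‖ →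
    0 < (lg t w * conj (kS t)).re := by
  have hk : ContinuousAt kS 0 := (analyticAt_kS (by simp)).continuousAt
  have hm : ContinuousAt H810.mS 0 := (analyticAt_mS (by simp)).continuousAt
  have h1 : ∀ᶠ t in 𝓝 (0 : ℂ), 1 / 2 < Complex.normSq (kS t) := by
    have hc : ContinuousAt (fun t => Complex.normSq (kS t)) 0 :=
      Complex.continuous_normSq.continuousAt.comp hk
    refine hc.eventually (lt_mem_nhds ?_)
    simp only [kS_zero, map_one]
    norm_num
  have h2 : ∀ᶠ t in 𝓝 (0 : ℂ), (H810.mS t * conj (kS t)).re < 1 / 2 := by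
    have hc : ContinuousAt (fun t => (H810.mS t * conj (kS t)).re) 0 :=
      Complex.continuous_re.continuousAt.comp (hm.mul
        (Complex.continuous_conj.continuousAt.comp hk))
    refine hc.eventually (gt_mem_nhds ?_)
    simp only [mZ_zero, zero_mul, Complex.zero_re]
    norm_num
  obtain ⟨r, hr, h⟩ := Metric.eventually_nhds_iff.1 (h1.and h2)
  refine ⟨min r (1 / 2), by positivity, (min_le_right _ _).trans_lt (by norm_num), ?_⟩
  intro t w ht ht0 hw
  have ht1 : ‖t‖ < 1 / 2 := ht.trans_le (min_le_right _ _)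
  obtain ⟨h3, h4⟩ := @h t (by rw [dist_zero_right]; exact ht.trans_le (min_le_left _ _))
  have hlog : Real.log ‖t‖ < 0 := Real.log_neg (norm_pos_iff.2 ht0) (by linarith)
  have hl2 := Real.log_two_gt_d9
  have e : (lg t w * conj (kS t)).re
      = Complex.normSq (kS t) * (2 * Real.log 2 - Real.log ‖t‖) - (H810.mS t * conj (kS t)).re := by
    have hre : (Complex.log w).re = Real.log ‖t‖ := by rw [Complex.log_re, hw]
    unfold lg
    have e1 : -(kS t * (Complex.log w - 2 * (Real.log 2 : ℂ)) + H810.mS t) * conj (kS t)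
        = (kS t * conj (kS t)) * (2 * (Real.log 2 : ℂ) - Complex.log w)
          - H810.mS t * conj (kS t) := by ring
    have e2 : (2 * (Real.log 2 : ℂ)).re = 2 * Real.log 2 := by
      simp only [Complex.mul_re, Complex.ofReal_re, Complex.ofReal_im, Complex.re_ofNat,
        Complex.im_ofNat]
      ring
    rw [e1, Complex.mul_conj, Complex.sub_re, Complex.re_ofReal_mul, Complex.sub_re, hre, e2]
  rw [e]
  have h5 : 1 < 2 * Real.log 2 - Real.log ‖t‖ := by linarith
  nlinarith

/-- the product form at a cusp -/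
lemma prod_re (c z w : ℂ) : ((c * z) * conj (c * w)).re
    = Complex.normSq c * (z * conj w).re := by
  have e : (c * z) * conj (c * w) = (c * conj c) * (z * conj w) := by
    rw [map_mul]; ring
  rw [e, Complex.mul_conj, Complex.re_ofReal_mul]

lemma near_zero : ∀ᶠ u in 𝓝 (0 : ℂ), 0 < u.im → 0 < P u := by
  obtain ⟨r, hr, hr1, h⟩ := cusp
  filter_upwards [Metric.ball_mem_nhds (0 : ℂ) hr] with u hu hi
  have hu' : ‖u‖ < r := by simpa using hu
  have hu0 : u ≠ 0 := by rintro rfl; simp at hi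
  have h1 := h u u hu' hu0 rfl
  have e3 : b3 u = lg u u := isKc.A3_c0 (hu'.trans hr1) (Or.inr (ne_of_gt hi))
  have e0 : b0 u = (Real.pi / 2 : ℝ) * kS u := by
    unfold b0 H810.A0
    rw [isKc.eq u (hu'.trans hr1)]
    push_cast; ring
  unfold P
  rw [e3, e0, map_mul, Complex.conj_ofReal]
  have e : lg u u * (((Real.pi / 2 : ℝ) : ℂ) * conj (kS u))
      = ((Real.pi / 2 : ℝ) : ℂ) * (lg u u * conj (kS u)) := by ring
  rw [e, Complex.re_ofReal_mul]
  have := Real.pi_pos
  positivity

lemma im_mob_neg {u : ℂ} (hu : 0 < u.im) : ((u + 1) / (u - 1)).im < 0 := by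
  have hum : u - 1 ≠ 0 := by
    intro h
    have := congrArg Complex.im h
    simp at this
    rw [this] at hu
    exact lt_irrefl _ hu
  have h3 : ((u + 1) / (u - 1)).im = -2 * u.im / Complex.normSq (u - 1) := by
    rw [Complex.div_im]
    simp only [Complex.add_im, Complex.one_im, Complex.sub_re, Complex.one_re,
      Complex.add_re, Complex.sub_im]
    ring
  rw [h3]
  have h4 : 0 < Complex.normSq (u - 1) := Complex.normSq_pos.mpr hum
  apply div_neg_of_neg_of_pos _ h4
  linarith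

lemma im_mob_pos {u : ℂ} (hu : 0 < u.im) : 0 < ((u - 1) / (u + 1)).im := by
  have hum : u + 1 ≠ 0 := by
    intro h
    have := congrArg Complex.im h
    simp at this
    rw [this] at hu
    exact lt_irrefl _ hu
  have h3 : ((u - 1) / (u + 1)).im = 2 * u.im / Complex.normSq (u + 1) := by
    rw [Complex.div_im]
    simp only [Complex.add_im, Complex.one_im, Complex.sub_re, Complex.one_re,
      Complex.add_re, Complex.sub_im]
    ring
  rw [h3]
  have h4 : 0 < Complex.normSq (u + 1) := Complex.normSq_pos.mpr hum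
  positivity

lemma near_one : ∀ᶠ u in 𝓝 (1 : ℂ), 0 < u.im → 0 < P u := by
  obtain ⟨r, hr, hr1, h⟩ := cusp
  have hc : ContinuousAt (fun u : ℂ => (u - 1) / (u + 1)) 1 :=
    (continuousAt_id.sub continuousAt_const).div (continuousAt_id.add continuousAt_const)
      (by norm_num)
  have h0 : ((fun u : ℂ => (u - 1) / (u + 1)) 1) = 0 := by simp
  have hev : ∀ᶠ u in 𝓝 (1 : ℂ), ‖(u - 1) / (u + 1)‖ < r := by
    refine hc.norm.eventually (gt_mem_nhds ?_)
    simpa using hr
  filter_upwards [hev] with u hu hi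
  set t : ℂ := (u - 1) / (u + 1) with ht
  have him : 0 < t.im := im_mob_pos hi
  have ht0 : t ≠ 0 := by rintro h; rw [h] at him; simp at him
  have hu1 : u + 1 ≠ 0 := by
    intro h
    have := congrArg Complex.im h
    simp at this
    rw [this] at hi
    exact lt_irrefl _ hi
  have h1t : 1 - t = 2 / (u + 1) := by rw [ht]; field_simp; ring
  have h1t0 : 1 - t ≠ 0 := by rw [h1t]; exact div_ne_zero two_ne_zero hu1
  have hut : u = (1 + t) / (1 - t) := by
    rw [eq_div_iff h1t0, ht]
    field_simp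
    ring
  have h1 := h t (-t) hu ht0 (norm_neg t)
  have e3 : b3 u = (1 - t) / 2 * ((Real.pi : ℝ) * kS t) := by
    unfold b3
    rw [hut, isKc.A3_c3 (hu.trans hr1)]
    ring
  have e0 : b0 u = (1 - t) / 2 * lg t (-t) := by
    unfold b0
    rw [hut, isKc.A0_c3 (hu.trans hr1) (Or.inr (by
      rw [Complex.neg_im]; exact neg_ne_zero.2 (ne_of_gt him)))]
    unfold lg
    ring
  unfold P
  rw [e3, e0, prod_re]
  have h2 : 0 < Complex.normSq ((1 - t) / 2) :=
    Complex.normSq_pos.2 (div_ne_zero h1t0 two_ne_zero)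
  have e : (((Real.pi : ℝ) : ℂ) * kS t * conj (lg t (-t))).re
      = Real.pi * (lg t (-t) * conj (kS t)).re := by
    rw [mul_assoc, Complex.re_ofReal_mul]
    congr 1
    rw [← Complex.conj_re (lg t (-t) * conj (kS t)), map_mul, Complex.conj_conj]
    ring_nf
  rw [e]
  have := Real.pi_pos
  positivity

lemma near_neg_one : ∀ᶠ u in 𝓝 (-1 : ℂ), 0 < u.im → 0 < P u := by
  obtain ⟨r, hr, hr1, h⟩ := cusp
  have hc : ContinuousAt (fun u : ℂ => (u + 1) / (u - 1)) (-1) :=
    (continuousAt_id.add continuousAt_const).div (continuousAt_id.sub continuousAt_const)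
      (by norm_num)
  have hev : ∀ᶠ u in 𝓝 (-1 : ℂ), ‖(u + 1) / (u - 1)‖ < r := by
    refine hc.norm.eventually (gt_mem_nhds ?_)
    simpa using hr
  filter_upwards [hev] with u hu hi
  set t : ℂ := (u + 1) / (u - 1) with ht
  have him : t.im < 0 := im_mob_neg hi
  have ht0 : t ≠ 0 := by rintro h; rw [h] at him; simp at him
  have hu1 : u - 1 ≠ 0 := by
    intro h
    have := congrArg Complex.im h
    simp at this
    rw [this] at hi
    exact lt_irrefl _ hi
  have h1t : 1 - t = -2 / (u - 1) := by rw [ht]; field_simp; ring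
  have h1t0 : 1 - t ≠ 0 := by rw [h1t]; exact div_ne_zero (by norm_num) hu1
  have hut : u = -((1 + t) / (1 - t)) := by
    rw [← neg_div, eq_div_iff h1t0, ht]
    field_simp
    ring
  have h1 := h t (-t) hu ht0 (norm_neg t)
  have e1 : b1 u = (1 - t) / 2 * ((Real.pi : ℝ) * kS t) := by
    unfold b1
    rw [hut, isKc.A1_c1 (hu.trans hr1)]
    ring
  have e0 : b0 u = (1 - t) / 2 * lg t (-t) := by
    unfold b0
    rw [hut, isKc.A0_c1 (hu.trans hr1) (Or.inr (by
      rw [Complex.neg_im]; exact neg_ne_zero.2 (ne_of_lt him)))]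
    unfold lg
    ring
  rw [P_eq1 hi, e1, e0, prod_re]
  have h2 : 0 < Complex.normSq ((1 - t) / 2) :=
    Complex.normSq_pos.2 (div_ne_zero h1t0 two_ne_zero)
  have e : (((Real.pi : ℝ) : ℂ) * kS t * conj (lg t (-t))).re
      = Real.pi * (lg t (-t) * conj (kS t)).re := by
    rw [mul_assoc, Complex.re_ofReal_mul]
    congr 1
    rw [← Complex.conj_re (lg t (-t) * conj (kS t)), map_mul, Complex.conj_conj]
    ring_nf
  rw [e]
  have := Real.pi_pos
  positivity

lemma near_inf : ∃ R : ℝ, 0 < R ∧ ∀ u : ℂ, R < ‖u‖ → 0 < u.im → 0 < P u := by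
  obtain ⟨r, hr, hr1, h⟩ := cusp
  refine ⟨r⁻¹, inv_pos.2 hr, fun u hu hi => ?_⟩
  have hu0 : u ≠ 0 := by rintro rfl; simp at hi
  set v : ℂ := u⁻¹ with hv
  have hv0 : v ≠ 0 := inv_ne_zero hu0
  have hvr : ‖v‖ < r := by
    rw [hv, norm_inv]
    exact inv_lt_of_inv_lt₀ hr hu
  have hvim : v.im < 0 := by
    rw [hv, Complex.inv_im]
    exact div_neg_of_neg_of_pos (neg_lt_zero.2 hi) (Complex.normSq_pos.2 hu0)
  have huv : u = v⁻¹ := by rw [hv, inv_inv]
  have h1 := h v v hvr hv0 rfl
  have e3 : b3 u = v * lg v v := by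
    unfold b3
    rw [huv, isKc.A3_c2 (hvr.trans hr1) (Or.inr (ne_of_lt hvim))]
    unfold lg
    ring
  have e2 : b2 u = v * ((Real.pi / 2 : ℝ) * kS v) := by
    unfold b2
    rw [huv, isKc.A2_c2 (hvr.trans hr1)]
    push_cast
    ring
  rw [P_eq2 hi, e3, e2, prod_re]
  have h2 : 0 < Complex.normSq v := Complex.normSq_pos.2 hv0
  have e : (lg v v * conj (((Real.pi / 2 : ℝ) : ℂ) * kS v)).re
      = Real.pi / 2 * (lg v v * conj (kS v)).re := by
    rw [map_mul, Complex.conj_ofReal]
    have e' : lg v v * (((Real.pi / 2 : ℝ) : ℂ) * conj (kS v))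
      = ((Real.pi / 2 : ℝ) : ℂ) * (lg v v * conj (kS v)) := by ring
    rw [e', Complex.re_ofReal_mul]
  rw [e]
  have := Real.pi_pos
  positivity

/-! ### the maximum principle -/

lemma near_all (x : ℝ) : ∀ᶠ u in 𝓝 (x : ℂ), 0 < u.im → 0 < P u := by
  by_cases h0 : x = 0
  · subst h0; simpa using near_zero
  by_cases h1 : x = 1
  · subst h1; simpa using near_one
  by_cases h2 : x = -1
  · subst h2; simpa using near_neg_one
  exact near_real h0 h1 h2

lemma mem_OmK_im {u : ℂ} (hu : 0 < u.im) : u ∈ H3.OmK := H3.mem_OmK_of_im (ne_of_gt hu)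

lemma cont_P {u : ℂ} (hu : 0 < u.im) : ContinuousAt P u :=
  Complex.continuous_re.continuousAt.comp ((cont_b3 (Or.inr (ne_of_gt hu))).mul
    (Complex.continuous_conj.continuousAt.comp (cont_b0 (mem_OmK_im hu))))

/-- the quotient `A3 / A0` has the sign of `P` -/
lemma quot_re {u : ℂ} (hu : 0 < u.im) :
    (b3 u / b0 u).re = P u / Complex.normSq (b0 u) := by
  have h0 := b0_ne (mem_OmK_im hu)
  have h1 : Complex.normSq (b0 u) ≠ 0 := (Complex.normSq_pos.2 h0).ne'
  unfold P
  rw [Complex.div_re, Complex.mul_re, Complex.conj_re, Complex.conj_im]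
  field_simp
  ring

/-- **`Re (A3 conj A0) > 0` on the upper half plane** -/
theorem P_pos {u : ℂ} (hu : 0 < u.im) : 0 < P u := by
  by_contra hcon
  set K : Set ℂ := {w | 0 < w.im ∧ P w ≤ 0} with hK
  obtain ⟨R, hR, hinf⟩ := near_inf
  have hcl : IsClosed K := by
    rw [← closure_subset_iff_isClosed]
    intro p hp
    have hpim : 0 ≤ p.im := by
      have hs : K ⊆ {w : ℂ | 0 ≤ w.im} := fun w hw => hw.1.le
      exact closure_minimal hs (isClosed_le continuous_const Complex.continuous_im) hp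
    rcases hpim.lt_or_eq with h | h
    · refine ⟨h, ?_⟩
      by_contra hc
      rw [not_le] at hc
      have h1 := (cont_P h).eventually (lt_mem_nhds hc)
      obtain ⟨w, hw1, hw2⟩ := mem_closure_iff_nhds.1 hp _ h1
      exact absurd hw2.2 (not_le.2 hw1)
    · exfalso
      have hpr : p = ((p.re : ℝ) : ℂ) := by
        apply Complex.ext
        · simp
        · simp [← h]
      have h1 := near_all p.re
      rw [← hpr] at h1
      obtain ⟨w, hw1, hw2⟩ := mem_closure_iff_nhds.1 hp _ h1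
      exact absurd hw2.2 (not_le.2 (hw1 hw2.1))
  have hbd : K ⊆ closedBall 0 R := by
    intro w hw
    rw [mem_closedBall_zero_iff]
    by_contra hc
    exact absurd hw.2 (not_le.2 (hinf w (not_le.1 hc) hw.1))
  have hcomp : IsCompact K := (isCompact_closedBall (0 : ℂ) R).of_isClosed_subset hcl hbd
  have hne : K.Nonempty := ⟨u, hu, not_lt.1 hcon⟩
  have hcont : ContinuousOn (fun w => (b3 w / b0 w).re) K := fun w hw =>
    (Complex.continuous_re.continuousAt.comp
      ((cont_b3 (Or.inr (ne_of_gt hw.1))).div (cont_b0 (mem_OmK_im hw.1))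
        (b0_ne (mem_OmK_im hw.1)))).continuousWithinAt
  obtain ⟨u0, hu0, hmin⟩ := hcomp.exists_isMinOn hne hcont
  have hv0 : (b3 u0 / b0 u0).re ≤ 0 := by
    rw [quot_re hu0.1]
    exact div_nonpos_of_nonpos_of_nonneg hu0.2 (Complex.normSq_nonneg _)
  have hall : ∀ w : ℂ, 0 < w.im → (b3 u0 / b0 u0).re ≤ (b3 w / b0 w).re := by
    intro w hw
    by_cases hP : P w ≤ 0
    · exact hmin ⟨hw, hP⟩
    · rw [not_le] at hP
      rw [quot_re hw]
      have h3 : 0 < Complex.normSq (b0 w) := Complex.normSq_pos.2 (b0_ne (mem_OmK_im hw))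
      have h4 : 0 < P w / Complex.normSq (b0 w) := by positivity
      linarith
  set Om : Set ℂ := {w | 0 < w.im} with hOm
  have ho : IsOpen Om := isOpen_lt continuous_const Complex.continuous_im
  have hconn : IsPreconnected Om := (convex_halfSpace_im_gt 0).isPreconnected
  have hdiff : DifferentiableOn ℂ (fun w => Complex.exp (-(b3 w / b0 w))) Om := by
    intro w hw
    have h3 : DifferentiableAt ℂ b3 w :=
      (isKc.analyticAt_A3 (Or.inr (ne_of_gt hw))).differentiableAt
    have h0 : DifferentiableAt ℂ b0 w :=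
      (isKc.analyticAt (mem_OmK_iff.2 (mem_OmK_im hw))).differentiableAt.const_mul _
    exact ((h3.div h0 (b0_ne (mem_OmK_im hw))).neg.cexp).differentiableWithinAt
  have hmax : IsMaxOn (norm ∘ fun w => Complex.exp (-(b3 w / b0 w))) Om u0 := by
    intro w hw
    show ‖Complex.exp (-(b3 w / b0 w))‖ ≤ ‖Complex.exp (-(b3 u0 / b0 u0))‖
    rw [Complex.norm_exp, Complex.norm_exp, Complex.neg_re, Complex.neg_re]
    have := hall w hw
    exact Real.exp_le_exp.2 (by linarith)
  have heq := Complex.norm_eqOn_of_isPreconnected_of_isMaxOn hconn ho hdiff hu0.1 hmax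
  -- a point with positive real part
  set w1 : ℂ := ((R + 1 : ℝ) : ℂ) * I with hw1
  have hw1im : w1.im = R + 1 := by simp [hw1]
  have hw1pos : 0 < w1.im := by rw [hw1im]; linarith
  have hw1n : R < ‖w1‖ := by
    rw [hw1, norm_mul, Complex.norm_I, mul_one, Complex.norm_real, Real.norm_eq_abs,
      abs_of_pos (by linarith)]
    linarith
  have h5 := hinf w1 hw1n hw1pos
  have h6 := heq (show w1 ∈ Om from hw1pos)
  simp only [Function.comp_apply, Function.const_apply] at h6
  rw [Complex.norm_exp, Complex.norm_exp, Real.exp_eq_exp, Complex.neg_re, Complex.neg_re] at h6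
  have h7 : 0 < (b3 w1 / b0 w1).re := by
    rw [quot_re hw1pos]
    have h3 : 0 < Complex.normSq (b0 w1) := Complex.normSq_pos.2 (b0_ne (mem_OmK_im hw1pos))
    positivity
  linarith

/-- no zeros: `α A0 + β A3` with `Re (α conj β) ≥ 0` -/
theorem comb_ne {α β : ℂ} (h : 0 ≤ (α * conj β).re) (h0 : α ≠ 0 ∨ β ≠ 0) {u : ℂ}
    (hu : 0 < u.im) : α * b0 u + β * b3 u ≠ 0 := by
  intro he
  have hb0 := b0_ne (mem_OmK_im hu)
  have hP := P_pos hu
  by_cases hβ : β = 0
  · rw [hβ, zero_mul, add_zero] at he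
    rcases h0 with h1 | h1
    · exact mul_ne_zero h1 hb0 he
    · exact h1 hβ
  · -- `β b3 = -α b0`, multiply with `conj (β b0)`
    have h1 : β * b3 u * (conj β * conj (b0 u)) = -(α * b0 u) * (conj β * conj (b0 u)) := by
      have : β * b3 u = -(α * b0 u) := by linear_combination he
      rw [this]
    have h2 : (Complex.normSq β : ℂ) * (b3 u * conj (b0 u))
        = -((Complex.normSq (b0 u) : ℂ) * (α * conj β)) := by
      rw [← Complex.mul_conj β, ← Complex.mul_conj (b0 u)]
      linear_combination h1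
    have h3 := congrArg Complex.re h2
    rw [Complex.re_ofReal_mul, Complex.neg_re, Complex.re_ofReal_mul] at h3
    have h4 : 0 < Complex.normSq β := Complex.normSq_pos.2 hβ
    have h5 : 0 ≤ Complex.normSq (b0 u) := Complex.normSq_nonneg _
    have h6 : 0 < Complex.normSq β * (b3 u * conj (b0 u)).re := mul_pos h4 hP
    have h7 : 0 ≤ Complex.normSq (b0 u) * (α * conj β).re := mul_nonneg h5 h
    linarith

/-- `A3 + i r A0 ≠ 0` for real `r` -/
theorem line_ne (r : ℝ) {u : ℂ} (hu : 0 < u.im) : b3 u + I * r * b0 u ≠ 0 := by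
  have h := comb_ne (α := I * r) (β := 1) (by simp) (Or.inr one_ne_zero) hu
  intro he
  apply h
  linear_combination he

end

end Vale.Agent.P030.H3.KPos
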