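import Vale.Agent.P030.T.Defs

/-!
# The complete elliptic integral as a Stieltjes function: continuation and zero-freeness

`Kc u = π⁻² ∫∫ da db / (1 - u² sin² a sin² b)` is the holomorphic continuation of `Σ serK_n u^n` to
the plane without `(-∞,-1] ∪ [1,∞)`, and has no zeros there.
-/

namespace Vale.Agent.P030.H3

open Finset Filter Topology MeasureTheory Real

set_option linter.unusedSectionVars false

/-- the measure `da db` on `(0, π]²` -/
noncomputable def mS : Measure (ℝ × ℝ) :=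
  (volume.restrict (Set.Ioc 0 π)).prod (volume.restrict (Set.Ioc 0 π))

instance : IsFiniteMeasure mS := by unfold mS; infer_instance

/-- the parameter `sin² a sin² b ∈ [0, 1]` -/
noncomputable def sS (p : ℝ × ℝ) : ℝ := Real.sin p.1 ^ 2 * Real.sin p.2 ^ 2

lemma continuous_sS : Continuous sS := by unfold sS; fun_prop

lemma sS_nonneg (p : ℝ × ℝ) : 0 ≤ sS p := by unfold sS; positivity

lemma sS_le (p : ℝ × ℝ) : sS p ≤ 1 := by
  unfold sS
  have h1 := Real.sin_sq_le_one p.1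
  have h2 := Real.sin_sq_le_one p.2
  nlinarith [sq_nonneg (Real.sin p.1), sq_nonneg (Real.sin p.2)]

/-- moments -/
lemma integral_sS_pow (k : ℕ) : ∫ p, sS p ^ k ∂mS =
    (π * ∏ i ∈ range k, (2 * (i : ℝ) + 1) / (2 * i + 2)) ^ 2 := by
  have h1 : ∫ x in Set.Ioc 0 π, (Real.sin x ^ 2) ^ k =
      π * ∏ i ∈ range k, (2 * (i : ℝ) + 1) / (2 * i + 2) := by
    rw [← intervalIntegral.integral_of_le pi_pos.le, ← integral_sin_pow_even]
    simp_rw [← pow_mul]
  have h2 : ∀ p : ℝ × ℝ, sS p ^ k = (Real.sin p.1 ^ 2) ^ k * (Real.sin p.2 ^ 2) ^ k := by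
    intro p; rw [sS, mul_pow]
  simp_rw [h2]
  rw [mS, integral_prod_mul (fun x => (Real.sin x ^ 2) ^ k) (fun x => (Real.sin x ^ 2) ^ k), h1, sq]

/-- the Stieltjes function -/
noncomputable def GS (w : ℂ) : ℂ := ∫ p, (1 - w * (sS p : ℂ))⁻¹ ∂mS

/-- its domain -/
def WS : Set ℂ := {w | ¬ (w.im = 0 ∧ 1 ≤ w.re)}

lemma isOpen_WS : IsOpen WS := by
  have : WSᶜ = {w : ℂ | w.im = 0} ∩ {w : ℂ | 1 ≤ w.re} := by
    ext w; simp [WS]
  rw [← isClosed_compl_iff, this]
  exact (isClosed_eq Complex.continuous_im continuous_const).inter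
    (isClosed_le continuous_const Complex.continuous_re)

lemma one_sub_ne {w : ℂ} (hw : w ∈ WS) {t : ℝ} (h0 : 0 ≤ t) (h1 : t ≤ 1) :
    1 - w * (t : ℂ) ≠ 0 := by
  intro h
  have hre := congrArg Complex.re h
  have him := congrArg Complex.im h
  simp only [Complex.sub_re, Complex.one_re, Complex.mul_re, Complex.ofReal_re, Complex.ofReal_im,
    mul_zero, sub_zero, Complex.zero_re] at hre
  simp only [Complex.sub_im, Complex.one_im, Complex.mul_im, Complex.ofReal_re, Complex.ofReal_im,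
    mul_zero, zero_add, Complex.zero_im] at him
  have ht : t ≠ 0 := by rintro rfl; norm_num at hre
  have htp : 0 < t := lt_of_le_of_ne h0 (Ne.symm ht)
  refine hw ⟨?_, ?_⟩
  · have : w.im * t = 0 := by linarith
    exact (mul_eq_zero.1 this).resolve_right ht
  · have : w.re * t = 1 := by linarith
    nlinarith

/-- a uniform lower bound near a point of the domain -/
lemma exists_lower {w₀ : ℂ} (hw : w₀ ∈ WS) : ∃ ε > 0, ∃ c > 0, Metric.ball w₀ ε ⊆ WS ∧
    ∀ w ∈ Metric.ball w₀ ε, ∀ t : ℝ, 0 ≤ t → t ≤ 1 → c ≤ ‖1 - w * (t : ℂ)‖ := by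
  obtain ⟨ε, hε, hb⟩ := Metric.isOpen_iff.1 isOpen_WS w₀ hw
  have hK : IsCompact ((Metric.closedBall w₀ (ε / 2)) ×ˢ (Set.Icc (0 : ℝ) 1)) :=
    (isCompact_closedBall _ _).prod isCompact_Icc
  have hne : ((Metric.closedBall w₀ (ε / 2)) ×ˢ (Set.Icc (0 : ℝ) 1)).Nonempty :=
    ⟨(w₀, 0), Metric.mem_closedBall_self (by positivity), by simp⟩
  have hcont : Continuous fun q : ℂ × ℝ => ‖1 - q.1 * (q.2 : ℂ)‖ := by fun_prop
  obtain ⟨q, hq, hmin⟩ := hK.exists_isMinOn hne hcont.continuousOn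
  have hsub : Metric.closedBall w₀ (ε / 2) ⊆ WS := fun w hw' =>
    hb (Metric.closedBall_subset_ball (by linarith) hw')
  refine ⟨ε / 2, by positivity, ‖1 - q.1 * (q.2 : ℂ)‖, ?_, ?_, ?_⟩
  · exact norm_pos_iff.2 (one_sub_ne (hsub hq.1) hq.2.1 hq.2.2)
  · exact Metric.ball_subset_closedBall.trans hsub
  · intro w hw' t h0 h1
    exact hmin (Set.mk_mem_prod (Metric.ball_subset_closedBall hw') ⟨h0, h1⟩)

lemma continuous_kernel {w : ℂ} (hw : w ∈ WS) :
    Continuous fun p : ℝ × ℝ => (1 - w * (sS p : ℂ))⁻¹ := by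
  refine Continuous.inv₀ ?_ fun p => one_sub_ne hw (sS_nonneg p) (sS_le p)
  have := continuous_sS
  fun_prop

lemma integrable_kernel {w : ℂ} (hw : w ∈ WS) :
    Integrable (fun p : ℝ × ℝ => (1 - w * (sS p : ℂ))⁻¹) mS := by
  obtain ⟨ε, hε, c, hc, -, hlow⟩ := exists_lower hw
  refine Integrable.of_bound (continuous_kernel hw).aestronglyMeasurable c⁻¹
    (Filter.Eventually.of_forall fun p => ?_)
  rw [norm_inv]
  exact inv_anti₀ hc (hlow w (Metric.mem_ball_self hε) _ (sS_nonneg p) (sS_le p))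

theorem hasDerivAt_GS {w : ℂ} (hw : w ∈ WS) :
    HasDerivAt GS (∫ p, (sS p : ℂ) / (1 - w * (sS p : ℂ)) ^ 2 ∂mS) w := by
  obtain ⟨ε, hε, c, hc, hsub, hlow⟩ := exists_lower hw
  refine (hasDerivAt_integral_of_dominated_loc_of_deriv_le (bound := fun _ => (c ^ 2)⁻¹)
    (F := fun w p => (1 - w * (sS p : ℂ))⁻¹)
    (F' := fun w p => (sS p : ℂ) / (1 - w * (sS p : ℂ)) ^ 2)
    (Metric.ball_mem_nhds w hε) ?_ (integrable_kernel hw) ?_ ?_ (integrable_const _) ?_).2
  · filter_upwards [Metric.ball_mem_nhds w hε] with z hz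
    exact (continuous_kernel (hsub hz)).aestronglyMeasurable
  · refine Continuous.aestronglyMeasurable ?_
    have := continuous_sS
    refine Continuous.div (by fun_prop) (by fun_prop) fun p => ?_
    exact pow_ne_zero _ (one_sub_ne hw (sS_nonneg p) (sS_le p))
  · refine Filter.Eventually.of_forall fun p z hz => ?_
    have h1 := hlow z hz _ (sS_nonneg p) (sS_le p)
    rw [norm_div, norm_pow, Complex.norm_real, Real.norm_of_nonneg (sS_nonneg p), div_eq_mul_inv]
    have h2 : (‖1 - z * (sS p : ℂ)‖ ^ 2)⁻¹ ≤ (c ^ 2)⁻¹ :=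
      inv_anti₀ (by positivity) (pow_le_pow_left₀ hc.le h1 2)
    calc sS p * (‖1 - z * (sS p : ℂ)‖ ^ 2)⁻¹ ≤ 1 * (c ^ 2)⁻¹ :=
          mul_le_mul (sS_le p) h2 (by positivity) zero_le_one
      _ = _ := one_mul _
  · refine Filter.Eventually.of_forall fun p z hz => ?_
    have h1 : HasDerivAt (fun z : ℂ => 1 - z * (sS p : ℂ)) (-(sS p : ℂ)) z := by
      simpa using ((hasDerivAt_id z).mul_const (sS p : ℂ)).const_sub 1
    have h2 : HasDerivAt (fun z : ℂ => (1 - z * (sS p : ℂ))⁻¹)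
        (-(-(sS p : ℂ)) / (1 - z * (sS p : ℂ)) ^ 2) z :=
      h1.inv (one_sub_ne (hsub hz) (sS_nonneg p) (sS_le p))
    rw [neg_neg] at h2
    exact h2

theorem differentiableOn_GS : DifferentiableOn ℂ GS WS := fun _ hw =>
  (hasDerivAt_GS hw).differentiableAt.differentiableWithinAt

/-- the product in Wallis' integrals is the central binomial coefficient over `4^k` -/
lemma prod_wallis (k : ℕ) : ∏ i ∈ range k, (2 * (i : ℝ) + 1) / (2 * i + 2) =
    (Nat.centralBinom k : ℝ) / 4 ^ k := by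
  induction k with
  | zero => simp
  | succ k ih =>
    rw [prod_range_succ, ih]
    have h := Nat.succ_mul_centralBinom_succ k
    have h' : ((k : ℝ) + 1) * (Nat.centralBinom (k + 1) : ℝ) =
        2 * (2 * k + 1) * (Nat.centralBinom k : ℝ) := by exact_mod_cast h
    have hk : (k : ℝ) + 1 ≠ 0 := by positivity
    have h'' : (Nat.centralBinom (k + 1) : ℝ) =
        2 * (2 * k + 1) * (Nat.centralBinom k : ℝ) / (k + 1) := by
      rw [eq_div_iff hk, mul_comm]; exact h'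
    rw [h'', pow_succ]
    field_simp
    ring

lemma hasSum_GS {w : ℂ} (hw : ‖w‖ < 1) :
    HasSum (fun k : ℕ => (π : ℂ) ^ 2 * (((Nat.centralBinom k : ℝ) / 4 ^ k) ^ 2 : ℝ) * w ^ k)
      (GS w) := by
  have h := hasSum_integral_of_dominated_convergence (μ := mS)
    (F := fun (k : ℕ) (p : ℝ × ℝ) => (w * (sS p : ℂ)) ^ k)
    (f := fun p => (1 - w * (sS p : ℂ))⁻¹) (bound := fun k _ => ‖w‖ ^ k)
    (fun k => by
      have := continuous_sS
      exact Continuous.aestronglyMeasurable (by fun_prop))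
    (fun k => Filter.Eventually.of_forall fun p => by
      rw [norm_pow, norm_mul, Complex.norm_real, Real.norm_of_nonneg (sS_nonneg p)]
      exact pow_le_pow_left₀ (by have := sS_nonneg p; positivity)
        (mul_le_of_le_one_right (norm_nonneg _) (sS_le p)) k)
    (Filter.Eventually.of_forall fun p => summable_geometric_of_lt_one (norm_nonneg _) hw)
    (by simp)
    (Filter.Eventually.of_forall fun p => by
      refine hasSum_geometric_of_norm_lt_one ?_
      rw [norm_mul, Complex.norm_real, Real.norm_of_nonneg (sS_nonneg p)]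
      exact lt_of_le_of_lt (mul_le_of_le_one_right (norm_nonneg _) (sS_le p)) hw)
  have e : (fun k : ℕ => (π : ℂ) ^ 2 * (((Nat.centralBinom k : ℝ) / 4 ^ k) ^ 2 : ℝ) * w ^ k) =
      fun k => ∫ p, (w * (sS p : ℂ)) ^ k ∂mS := by
    funext k
    have h1 : ∀ p : ℝ × ℝ, (w * (sS p : ℂ)) ^ k = w ^ k * ((sS p ^ k : ℝ) : ℂ) := by
      intro p; push_cast; ring
    simp_rw [h1]
    rw [integral_const_mul, integral_complex_ofReal, integral_sS_pow, prod_wallis]
    push_cast
    ring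
  rw [e]
  exact h

/-- quantitative sign of the imaginary part -/
theorem GS_im {w : ℂ} (hw : w ∈ WS) : ∃ c : ℝ, 0 < c ∧ (GS w).im = w.im * c := by
  have hint := integrable_kernel hw
  have h0 : ∀ p, 0 < Complex.normSq (1 - w * (sS p : ℂ)) := fun p =>
    Complex.normSq_pos.2 (one_sub_ne hw (sS_nonneg p) (sS_le p))
  refine ⟨∫ p, sS p / Complex.normSq (1 - w * (sS p : ℂ)) ∂mS, ?_, ?_⟩
  · have hcont : Continuous fun p : ℝ × ℝ => sS p / Complex.normSq (1 - w * (sS p : ℂ)) := by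
      have := continuous_sS
      have h2 := Complex.continuous_normSq
      exact Continuous.div (by fun_prop) (by fun_prop) fun p => (h0 p).ne'
    have hlow : ∀ p, sS p / (1 + ‖w‖) ^ 2 ≤ sS p / Complex.normSq (1 - w * (sS p : ℂ)) := by
      intro p
      refine div_le_div_of_nonneg_left (sS_nonneg p) (h0 p) ?_
      rw [Complex.normSq_eq_norm_sq]
      refine pow_le_pow_left₀ (norm_nonneg _) ?_ 2
      refine (norm_sub_le _ _).trans ?_
      rw [norm_one, norm_mul, Complex.norm_real, Real.norm_of_nonneg (sS_nonneg p)]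
      have := mul_le_of_le_one_right (norm_nonneg w) (sS_le p)
      linarith
    have hint2 : Integrable (fun p : ℝ × ℝ => sS p / Complex.normSq (1 - w * (sS p : ℂ))) mS := by
      obtain ⟨ε, hε, c, hc, -, hl⟩ := exists_lower hw
      refine Integrable.of_bound hcont.aestronglyMeasurable (c ^ 2)⁻¹
        (Filter.Eventually.of_forall fun p => ?_)
      rw [Real.norm_of_nonneg (div_nonneg (sS_nonneg p) (h0 p).le), Complex.normSq_eq_norm_sq,
        div_eq_mul_inv]
      have h1 := hl w (Metric.mem_ball_self hε) _ (sS_nonneg p) (sS_le p)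
      have h2 : (‖1 - w * (sS p : ℂ)‖ ^ 2)⁻¹ ≤ (c ^ 2)⁻¹ :=
        inv_anti₀ (by positivity) (pow_le_pow_left₀ hc.le h1 2)
      calc sS p * (‖1 - w * (sS p : ℂ)‖ ^ 2)⁻¹ ≤ 1 * (c ^ 2)⁻¹ :=
            mul_le_mul (sS_le p) h2 (by positivity) zero_le_one
        _ = _ := one_mul _
    have hint1 : Integrable (fun p : ℝ × ℝ => sS p / (1 + ‖w‖) ^ 2) mS := by
      refine Integrable.of_bound (continuous_sS.div_const _).aestronglyMeasurable
        (1 / (1 + ‖w‖) ^ 2) (Filter.Eventually.of_forall fun p => ?_)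
      rw [Real.norm_of_nonneg (div_nonneg (sS_nonneg p) (by positivity))]
      exact div_le_div_of_nonneg_right (sS_le p) (by positivity)
    refine lt_of_lt_of_le ?_ (integral_mono hint1 hint2 hlow)
    rw [integral_div]
    have h1 := integral_sS_pow 1
    simp only [pow_one, prod_wallis] at h1
    rw [h1]
    have := pi_pos
    norm_num [Nat.centralBinom]
    positivity
  · have h1 : (GS w).im = ∫ p, ((1 - w * (sS p : ℂ))⁻¹).im ∂mS := by
      have := (integral_im hint)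
      exact this.symm
    rw [h1, ← integral_const_mul]
    refine integral_congr_ae (Filter.Eventually.of_forall fun p => ?_)
    simp only [Complex.inv_im, Complex.sub_im, Complex.one_im, Complex.mul_im, Complex.ofReal_re,
      Complex.ofReal_im, mul_zero, zero_add]
    ring

/-- on the real part of the domain the function is positive -/
theorem GS_re {w : ℂ} (hw : w ∈ WS) (him : w.im = 0) : 0 < (GS w).re := by
  have hre : w.re < 1 := by
    by_contra h
    exact hw ⟨him, not_lt.1 h⟩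
  have hwr : w = (w.re : ℂ) := by
    apply Complex.ext <;> simp [him]
  have hint := integrable_kernel hw
  have h1 : (GS w).re = ∫ p, ((1 - w * (sS p : ℂ))⁻¹).re ∂mS := (integral_re hint).symm
  rw [h1]
  have h2 : ∀ p, ((1 - w * (sS p : ℂ))⁻¹).re = (1 - w.re * sS p)⁻¹ := by
    intro p
    rw [hwr]
    have : (1 - (w.re : ℂ) * (sS p : ℂ))⁻¹ = (((1 - w.re * sS p)⁻¹ : ℝ) : ℂ) := by
      push_cast; ring
    rw [this, Complex.ofReal_re, Complex.ofReal_re]
  have hpos : ∀ p, 0 < 1 - w.re * sS p := by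
    intro p
    rcases le_or_gt w.re 0 with h | h
    · nlinarith [sS_nonneg p]
    · nlinarith [sS_le p]
  simp_rw [h2]
  have hlow : ∀ p, (1 + |w.re|)⁻¹ ≤ (1 - w.re * sS p)⁻¹ := by
    intro p
    refine inv_anti₀ (hpos p) ?_
    have := neg_abs_le w.re
    have h3 := abs_nonneg w.re
    nlinarith [sS_le p, sS_nonneg p, mul_le_of_le_one_right h3 (sS_le p),
      mul_nonneg (sub_nonneg.2 this) (sS_nonneg p)]
  have hint2 : Integrable (fun p => (1 - w.re * sS p)⁻¹) mS := by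
    have := hint.re
    refine this.congr (Filter.Eventually.of_forall fun p => ?_)
    exact h2 p
  have h3 := integral_mono (integrable_const ((1 + |w.re|)⁻¹)) hint2 hlow
  refine lt_of_lt_of_le ?_ h3
  rw [integral_const, smul_eq_mul]
  refine mul_pos ?_ (by positivity)
  have : mS.real Set.univ = π * π := by
    rw [mS, ← Set.univ_prod_univ, measureReal_prod_prod]
    simp [pi_pos.le]
  rw [this]
  positivity

theorem GS_ne_zero {w : ℂ} (hw : w ∈ WS) : GS w ≠ 0 := by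
  intro h
  obtain ⟨c, hc, him⟩ := GS_im hw
  rw [h, Complex.zero_im] at him
  have h0 : w.im = 0 := by
    rcases mul_eq_zero.1 him.symm with h | h
    · exact h
    · exact absurd h hc.ne'
  have := GS_re hw h0
  rw [h] at this
  simp at this

lemma GS_conj (w : ℂ) : GS ((starRingEnd ℂ) w) = (starRingEnd ℂ) (GS w) := by
  unfold GS
  rw [← integral_conj]
  refine integral_congr_ae (Filter.Eventually.of_forall fun p => ?_)
  simp

/-! ### the function `Kc` -/

/-- the plane without `(-∞,-1] ∪ [1,∞)` -/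
def OmK : Set ℂ := {u | ¬ (u.im = 0 ∧ 1 ≤ |u.re|)}

/-- continuation of `Σ serK_n u^n` -/
noncomputable def Kc (u : ℂ) : ℂ := ((π : ℂ) ^ 2)⁻¹ * GS (u ^ 2)

lemma sq_mem_WS {u : ℂ} (hu : u ∈ OmK) : u ^ 2 ∈ WS := by
  rintro ⟨h1, h2⟩
  have e1 : (u ^ 2).im = 2 * (u.re * u.im) := by rw [sq, Complex.mul_im]; ring
  have e2 : (u ^ 2).re = u.re ^ 2 - u.im ^ 2 := by rw [sq, Complex.mul_re]; ring
  rw [e1] at h1
  rw [e2] at h2
  have h3 : u.re * u.im = 0 := by linarith
  rcases mul_eq_zero.1 h3 with h | h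
  · rw [h] at h2; nlinarith [sq_nonneg u.im]
  · refine hu ⟨h, ?_⟩
    rw [h] at h2
    have h4 : (1 : ℝ) ^ 2 ≤ |u.re| ^ 2 := by rw [sq_abs]; linarith
    exact le_of_sq_le_sq h4 (abs_nonneg _)
  where
  le_of_sq_le_sq {a b : ℝ} (h : a ^ 2 ≤ b ^ 2) (hb : 0 ≤ b) : a ≤ b := by
    nlinarith [abs_nonneg a, sq_nonneg (a - b)]

lemma isOpen_OmK : IsOpen OmK := by
  have : OmKᶜ = {w : ℂ | w.im = 0} ∩ {w : ℂ | 1 ≤ |w.re|} := by
    ext w; simp [OmK]
  rw [← isClosed_compl_iff, this]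
  exact (isClosed_eq Complex.continuous_im continuous_const).inter
    (isClosed_le continuous_const Complex.continuous_re.abs)

lemma zero_mem_OmK : (0 : ℂ) ∈ OmK := by
  rintro ⟨-, h⟩; simp at h; linarith

lemma mem_OmK_of_norm {u : ℂ} (hu : ‖u‖ < 1) : u ∈ OmK := by
  rintro ⟨-, h⟩
  linarith [Complex.abs_re_le_norm u]

lemma mem_OmK_of_im {u : ℂ} (hu : u.im ≠ 0) : u ∈ OmK := fun h => hu h.1

lemma starConvex_OmK : StarConvex ℝ 0 OmK := by
  rw [starConvex_zero_iff]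
  intro u hu t ht0 ht1 h
  simp only [Complex.real_smul, Complex.mul_im, Complex.ofReal_re, Complex.ofReal_im, zero_mul,
    add_zero, Complex.mul_re, sub_zero] at h
  rw [abs_mul, abs_of_nonneg ht0] at h
  have ht : t ≠ 0 := by rintro rfl; simp at h; linarith
  refine hu ⟨(mul_eq_zero.1 h.1).resolve_left ht, h.2.trans ?_⟩
  exact mul_le_of_le_one_left (abs_nonneg _) ht1

lemma isPreconnected_OmK : IsPreconnected OmK :=
  (starConvex_OmK.isPathConnected zero_mem_OmK).isConnected.isPreconnected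

theorem differentiableOn_Kc : DifferentiableOn ℂ Kc OmK := by
  refine DifferentiableOn.const_mul ?_ _
  exact differentiableOn_GS.comp (by fun_prop) fun u hu => sq_mem_WS hu

theorem Kc_ne_zero {u : ℂ} (hu : u ∈ OmK) : Kc u ≠ 0 := by
  refine mul_ne_zero (inv_ne_zero (pow_ne_zero _ ?_)) (GS_ne_zero (sq_mem_WS hu))
  exact_mod_cast pi_ne_zero

lemma Kc_neg (u : ℂ) : Kc (-u) = Kc u := by simp [Kc]

lemma Kc_conj (u : ℂ) : Kc ((starRingEnd ℂ) u) = (starRingEnd ℂ) (Kc u) := by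
  simp only [Kc, map_mul, map_inv₀, map_pow, ← GS_conj, Complex.conj_ofReal]

/-- sign of the imaginary part: that of `Re u * Im u` -/
theorem Kc_im {u : ℂ} (hu : u ∈ OmK) : ∃ c : ℝ, 0 < c ∧ (Kc u).im = u.re * u.im * c := by
  obtain ⟨c, hc, h⟩ := GS_im (sq_mem_WS hu)
  have h1 : ((π : ℂ) ^ 2)⁻¹ = (((π ^ 2)⁻¹ : ℝ) : ℂ) := by push_cast; rfl
  refine ⟨2 * c * (π ^ 2)⁻¹, by have := pi_pos; positivity, ?_⟩
  have e1 : (u ^ 2).im = 2 * (u.re * u.im) := by rw [sq, Complex.mul_im]; ring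
  rw [Kc, h1, Complex.im_ofReal_mul, h, e1]
  ring

/-- `Kc` is positive on the real and imaginary points of its domain -/
theorem Kc_re {u : ℂ} (hu : u ∈ OmK) (h0 : u.re * u.im = 0) : 0 < (Kc u).re := by
  have h := GS_re (sq_mem_WS hu) (by rw [sq, Complex.mul_im]; linarith)
  have h1 : ((π : ℂ) ^ 2)⁻¹ = (((π ^ 2)⁻¹ : ℝ) : ℂ) := by push_cast; rfl
  have h2 : (Kc u).re = (π ^ 2)⁻¹ * (GS (u ^ 2)).re := by rw [Kc, h1, Complex.re_ofReal_mul]
  rw [h2]
  have := pi_pos
  positivity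

open PowerSeries in
theorem hasSum_Kc {u : ℂ} (hu : ‖u‖ < 1) :
    HasSum (fun n : ℕ => ((PowerSeries.coeff n T.serK : ℚ) : ℂ) * u ^ n) (Kc u) := by
  have h0 : ‖u ^ 2‖ < 1 := by
    rw [norm_pow]; exact pow_lt_one₀ (norm_nonneg _) hu two_ne_zero
  have h := (hasSum_GS h0).mul_left (((π : ℂ) ^ 2)⁻¹)
  have hinj : Function.Injective (fun k : ℕ => 2 * k) := fun a b h => by
    have : 2 * a = 2 * b := h
    omega
  have hpi : (π : ℂ) ≠ 0 := by exact_mod_cast pi_ne_zero
  refine (hinj.hasSum_iff ?_).1 ?_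
  · intro n hn
    have hodd : ¬ Even n := by
      intro he
      obtain ⟨k, hk⟩ := he
      exact hn ⟨k, by simp only; omega⟩
    simp [T.serK, hodd]
  · have e : ((fun n : ℕ => ((PowerSeries.coeff n T.serK : ℚ) : ℂ) * u ^ n) ∘ fun k : ℕ => 2 * k) =
        fun k : ℕ => ((π : ℂ) ^ 2)⁻¹ *
          ((π : ℂ) ^ 2 * (((Nat.centralBinom k : ℝ) / 4 ^ k) ^ 2 : ℝ) * (u ^ 2) ^ k) := by
      funext k
      simp only [Function.comp, T.serK, PowerSeries.coeff_mk, even_two_mul, if_true]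
      rw [Nat.mul_div_cancel_left k (by norm_num)]
      push_cast
      field_simp
      ring
    rw [e]
    exact h

/-- uniqueness of the continuation -/
theorem eqOn_Kc {f : ℂ → ℂ} {U : Set ℂ} (hU : IsOpen U) (hc : IsPreconnected U) (h0 : (0 : ℂ) ∈ U)
    (hsub : U ⊆ OmK) (hf : DifferentiableOn ℂ f U) (hfe : f =ᶠ[𝓝 0] Kc) : Set.EqOn f Kc U :=
  (hf.analyticOnNhd hU).eqOn_of_preconnected_of_eventuallyEq
    ((differentiableOn_Kc.mono hsub).analyticOnNhd hU) hc h0 hfe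

/-! ### the four branches -/

/-- `A₀ = K(u)` -/
noncomputable def A0 (u : ℂ) : ℂ := π / 2 * Kc u
/-- `A₃ = K'(u)` -/
noncomputable def A3 (u : ℂ) : ℂ := π / (1 + u) * Kc ((u - 1) / (u + 1))
/-- `A₁ = K'(-u)` -/
noncomputable def A1 (u : ℂ) : ℂ := π / (1 - u) * Kc ((u + 1) / (u - 1))
/-- `A₂ = K(1/u)/u` -/
noncomputable def A2 (u : ℂ) : ℂ := π / 2 * (u⁻¹ * Kc u⁻¹)

/-- the plane without `(-∞, 0]` -/
def Om3 : Set ℂ := {u | ¬ (u.im = 0 ∧ u.re ≤ 0)}
/-- the plane without `[0, ∞)` -/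
def Om1 : Set ℂ := {u | ¬ (u.im = 0 ∧ 0 ≤ u.re)}
/-- the plane without `[-1, 1]` -/
def Om2 : Set ℂ := {u | ¬ (u.im = 0 ∧ |u.re| ≤ 1)}

lemma Om3_ne {u : ℂ} (hu : u ∈ Om3) : u + 1 ≠ 0 := by
  intro h
  have : u = -1 := by linear_combination h
  exact hu (by rw [this]; simp)

lemma Om1_ne {u : ℂ} (hu : u ∈ Om1) : u - 1 ≠ 0 := by
  intro h
  have : u = 1 := by linear_combination h
  exact hu (by rw [this]; simp)

lemma Om2_ne {u : ℂ} (hu : u ∈ Om2) : u ≠ 0 := by
  rintro rfl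
  exact hu (by simp)

lemma real_of_im {z : ℂ} (h : z.im = 0) : z = (z.re : ℂ) := by
  apply Complex.ext <;> simp [h]

lemma mob3_mem {u : ℂ} (hu : u ∈ Om3) : (u - 1) / (u + 1) ∈ OmK := by
  rintro ⟨h1, h2⟩
  have hne := Om3_ne hu
  set t := ((u - 1) / (u + 1)).re with ht
  have h3 : (u - 1) / (u + 1) = (t : ℂ) := real_of_im h1
  have h4 : u - 1 = t * (u + 1) := by rw [← h3]; field_simp
  have h5 : u * (1 - (t : ℂ)) = 1 + t := by linear_combination h4
  have ht1 : t ≠ 1 := by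
    intro h; rw [h] at h5; norm_num at h5
  have h6 : u = (((1 + t) / (1 - t) : ℝ) : ℂ) := by
    have : (1 - (t : ℂ)) ≠ 0 := by
      intro h
      exact ht1 (by exact_mod_cast (sub_eq_zero.1 h).symm)
    push_cast
    rw [eq_div_iff this, h5]
  refine hu ⟨by rw [h6]; exact Complex.ofReal_im _, ?_⟩
  rw [h6, Complex.ofReal_re]
  rcases le_abs.1 h2 with h | h
  · have h7 : 1 < t := lt_of_le_of_ne h (Ne.symm ht1)
    exact (div_neg_of_pos_of_neg (by linarith) (by linarith)).le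
  · exact div_nonpos_of_nonpos_of_nonneg (by linarith) (by linarith)

lemma neg_mem_Om3 {u : ℂ} (hu : u ∈ Om1) : -u ∈ Om3 := by
  rintro ⟨h1, h2⟩
  simp only [Complex.neg_im, neg_eq_zero, Complex.neg_re] at h1 h2
  exact hu ⟨h1, by linarith⟩

lemma mob1_mem {u : ℂ} (hu : u ∈ Om1) : (u + 1) / (u - 1) ∈ OmK := by
  have h := mob3_mem (neg_mem_Om3 hu)
  have e : (-u - 1) / (-u + 1) = (u + 1) / (u - 1) := by
    rw [← neg_div_neg_eq]; congr 1 <;> ring
  rwa [e] at h

lemma inv_mem {u : ℂ} (hu : u ∈ Om2) : u⁻¹ ∈ OmK := by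
  rintro ⟨h1, h2⟩
  have hne := Om2_ne hu
  have h3 : u⁻¹ = ((u⁻¹).re : ℂ) := real_of_im h1
  set t := (u⁻¹).re
  have h4 : u = ((t⁻¹ : ℝ) : ℂ) := by
    rw [Complex.ofReal_inv, ← h3, inv_inv]
  refine hu ⟨by rw [h4]; exact Complex.ofReal_im _, ?_⟩
  rw [h4, Complex.ofReal_re, abs_inv]
  exact inv_le_one_of_one_le₀ h2

theorem A0_ne_zero {u : ℂ} (hu : u ∈ OmK) : A0 u ≠ 0 := by
  have hpi : (π : ℂ) ≠ 0 := by exact_mod_cast pi_ne_zero
  exact mul_ne_zero (div_ne_zero hpi two_ne_zero) (Kc_ne_zero hu)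

theorem A3_ne_zero {u : ℂ} (hu : u ∈ Om3) : A3 u ≠ 0 := by
  have hpi : (π : ℂ) ≠ 0 := by exact_mod_cast pi_ne_zero
  refine mul_ne_zero (div_ne_zero hpi ?_) (Kc_ne_zero (mob3_mem hu))
  rw [add_comm]; exact Om3_ne hu

theorem A1_ne_zero {u : ℂ} (hu : u ∈ Om1) : A1 u ≠ 0 := by
  have hpi : (π : ℂ) ≠ 0 := by exact_mod_cast pi_ne_zero
  refine mul_ne_zero (div_ne_zero hpi ?_) (Kc_ne_zero (mob1_mem hu))
  intro h
  exact Om1_ne hu (by linear_combination -h)

theorem A2_ne_zero {u : ℂ} (hu : u ∈ Om2) : A2 u ≠ 0 := by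
  have hpi : (π : ℂ) ≠ 0 := by exact_mod_cast pi_ne_zero
  exact mul_ne_zero (div_ne_zero hpi two_ne_zero)
    (mul_ne_zero (inv_ne_zero (Om2_ne hu)) (Kc_ne_zero (inv_mem hu)))

theorem differentiableOn_A0 : DifferentiableOn ℂ A0 OmK := differentiableOn_Kc.const_mul _

theorem differentiableOn_A3 : DifferentiableOn ℂ A3 Om3 := by
  have h1 : DifferentiableOn ℂ (fun u : ℂ => (u - 1) / (u + 1)) Om3 :=
    DifferentiableOn.div (by fun_prop) (by fun_prop) fun u hu => Om3_ne hu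
  refine DifferentiableOn.mul (DifferentiableOn.div (by fun_prop) (by fun_prop) fun u hu => ?_)
    (differentiableOn_Kc.comp h1 fun u hu => mob3_mem hu)
  rw [add_comm]; exact Om3_ne hu

theorem differentiableOn_A1 : DifferentiableOn ℂ A1 Om1 := by
  have h1 : DifferentiableOn ℂ (fun u : ℂ => (u + 1) / (u - 1)) Om1 :=
    DifferentiableOn.div (by fun_prop) (by fun_prop) fun u hu => Om1_ne hu
  refine DifferentiableOn.mul (DifferentiableOn.div (by fun_prop) (by fun_prop) fun u hu => ?_)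
    (differentiableOn_Kc.comp h1 fun u hu => mob1_mem hu)
  intro h
  exact Om1_ne hu (by linear_combination -h)

theorem differentiableOn_A2 : DifferentiableOn ℂ A2 Om2 := by
  have h1 : DifferentiableOn ℂ (fun u : ℂ => u⁻¹) Om2 := fun u hu =>
    (differentiableAt_inv (Om2_ne hu)).differentiableWithinAt
  exact (h1.mul (differentiableOn_Kc.comp h1 fun u hu => inv_mem hu)).const_mul _

lemma mem_Om3_of_im {u : ℂ} (hu : u.im ≠ 0) : u ∈ Om3 := fun h => hu h.1
lemma mem_Om1_of_im {u : ℂ} (hu : u.im ≠ 0) : u ∈ Om1 := fun h => hu h.1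
lemma mem_Om2_of_im {u : ℂ} (hu : u.im ≠ 0) : u ∈ Om2 := fun h => hu h.1

end Vale.Agent.P030.H3
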